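import Crest.Agent.S0076.Graph

/-!
# The expectation hypothesis of S0076 in counting form

For a graph `A` on a finite vertex type `V` the expected number of (unlabelled) copies of `A` in
`G(n, p)` times the number of automorphisms of `A` is at most the expected number of labelled
copies, which is `(n)_{|V|} p^{e(A)}`.  Hence `1/2 ≤ gnpExpect n p (copyCount · A)` gives
`|Aut A| ≤ 2 (n)_{|V|} p^{e(A)}` (`aut_le_of_expect`), and for a subgraph `F` of `H` the same
with `|F.verts|` and `|F.edgeSet|` (`aut_le_of_expect_subgraph`).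
-/

open Finset
open Crest.CombinatoricsR.RandomGraph

namespace Crest.Agent.S0076R

section Marginal
variable {ι : Type*} [Fintype ι] [DecidableEq ι]

omit [DecidableEq ι] in
lemma bernoulliWeight_nonneg {p : ℝ} (hp0 : 0 ≤ p) (hp1 : p ≤ 1) (ω : ι → Bool) :
    0 ≤ Crest.FinProb.bernoulliWeight p ω := by
  unfold Crest.FinProb.bernoulliWeight
  exact prod_nonneg fun i _ => by split_ifs <;> linarith

/-- the probability that all coins of `S` show `true` -/
lemma sum_weight_forall (p : ℝ) (S : Finset ι) :
    ∑ ω : ι → Bool, Crest.FinProb.bernoulliWeight p ω *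
        (if ∀ i ∈ S, ω i = true then (1 : ℝ) else 0) = p ^ S.card := by
  unfold Crest.FinProb.bernoulliWeight
  have key : ∀ ω : ι → Bool,
      (∏ i, if ω i = true then p else 1 - p) * (if ∀ i ∈ S, ω i = true then (1 : ℝ) else 0)
        = ∏ i, ((if ω i = true then p else 1 - p) *
            (if i ∈ S then (if ω i = true then (1 : ℝ) else 0) else 1)) := by
    intro ω
    rw [prod_mul_distrib]
    congr 1
    by_cases h : ∀ i ∈ S, ω i = true
    · rw [if_pos h]
      symm
      refine prod_eq_one fun i _ => ?_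
      by_cases hi : i ∈ S
      · rw [if_pos hi, if_pos (h i hi)]
      · rw [if_neg hi]
    · rw [if_neg h]
      rw [not_forall] at h
      obtain ⟨i, hi⟩ := h
      rw [Classical.not_imp] at hi
      symm
      refine prod_eq_zero (mem_univ i) ?_
      rw [if_pos hi.1, if_neg hi.2]
  rw [sum_congr rfl (fun ω _ => key ω)]
  have h2 := prod_univ_sum (fun _ : ι => (univ : Finset Bool))
    (fun i b => (if b = true then p else 1 - p) *
      (if i ∈ S then (if b = true then (1 : ℝ) else 0) else 1))
  rw [Fintype.piFinset_univ] at h2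
  rw [← h2]
  have h3 : ∀ i, ∑ b : Bool, (if b = true then p else 1 - p) *
      (if i ∈ S then (if b = true then (1 : ℝ) else 0) else 1) = if i ∈ S then p else 1 := by
    intro i
    rw [Fintype.sum_bool]
    by_cases hi : i ∈ S
    · simp [hi]
    · simp [hi]
  rw [prod_congr rfl (fun i _ => h3 i), prod_ite_mem, univ_inter, prod_const]

end Marginal

section Copies
variable {n : ℕ} {V : Type} [Fintype V] (A : SimpleGraph V) [DecidableRel A.Adj]

lemma card_edgeImage (φ : V ↪ Fin n) : (edgeImage A φ).card = A.edgeFinset.card := by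
  unfold edgeImage
  rw [Finset.card_subtype, filter_true_of_mem, card_image_of_injective _
    (Sym2.map.injective φ.injective)]
  intro z hz
  obtain ⟨e, he, rfl⟩ := mem_image.1 hz
  rw [SimpleGraph.mem_edgeFinset] at he
  induction e using Sym2.ind with
  | _ u v =>
    have hadj : A.Adj u v := he
    show ¬ (s(φ u, φ v) : Sym2 (Fin n)).IsDiag
    rw [Sym2.mk_isDiag_iff]
    exact fun h => hadj.ne (φ.injective h)

/-- a copy of `A` in `graphOf ω` covers only coins showing `true` -/
lemma copy_mem (ω : EdgeSlot n → Bool) (f : SimpleGraph.Copy A (graphOf ω)) :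
    ∀ z ∈ edgeImage A f.toEmbedding, ω z = true := by
  intro z hz
  obtain ⟨e, he, hez⟩ := (mem_edgeImage A _ z).1 hz
  induction e using Sym2.ind with
  | _ u v =>
    have hadj : A.Adj u v := he
    have h2 : (graphOf ω).Adj (f u) (f v) := f.toHom.map_adj hadj
    unfold graphOf at h2
    rw [SimpleGraph.fromEdgeSet_adj] at h2
    obtain ⟨⟨hnd, hω⟩, _⟩ := h2
    have hz' : z = ⟨s(f u, f v), hnd⟩ := Subtype.ext (by rw [← hez]; rfl)
    rw [hz']
    exact hω

/-- unlabelled copies times automorphisms are at most the labelled copies -/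
lemma copyCount_mul_aut_le (ω : EdgeSlot n → Bool) :
    (graphOf ω).copyCount A * Nat.card (A ≃g A)
      ≤ (univ.filter fun φ : V ↪ Fin n => ∀ z ∈ edgeImage A φ, ω z = true).card := by
  have h1 : (graphOf ω).copyCount A
      = Nat.card {G' : (graphOf ω).Subgraph // Nonempty (A ≃g G'.coe)} := by
    unfold SimpleGraph.copyCount
    rw [← Nat.card_eq_finsetCard]
    exact Nat.card_congr (Equiv.subtypeEquivRight fun G' => by
      simp only [mem_filter, mem_univ, true_and])
  have h2 : (univ.filter fun φ : V ↪ Fin n => ∀ z ∈ edgeImage A φ, ω z = true).card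
      = Nat.card {φ : V ↪ Fin n // ∀ z ∈ edgeImage A φ, ω z = true} := by
    rw [← Nat.card_eq_finsetCard]
    exact Nat.card_congr (Equiv.subtypeEquivRight fun φ => by
      simp only [mem_filter, mem_univ, true_and])
  rw [h1, h2, ← Nat.card_prod]
  -- the copy attached to a subgraph isomorphic to `A` and an automorphism
  let c : {G' : (graphOf ω).Subgraph // Nonempty (A ≃g G'.coe)} × (A ≃g A)
      → SimpleGraph.Copy A (graphOf ω) := fun x =>
    ⟨x.1.1.hom.comp ((Classical.choice x.1.2).comp x.2).toHom,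
      SimpleGraph.Subgraph.hom_injective.comp ((Classical.choice x.1.2).comp x.2).injective⟩
  have hc : ∀ x, (c x).toSubgraph = x.1.1 := by
    intro x
    simp [c, SimpleGraph.Copy.toSubgraph, SimpleGraph.Subgraph.map_comp]
  refine Nat.card_le_card_of_injective
    (fun x => (⟨(c x).toEmbedding, copy_mem A ω (c x)⟩ :
      {φ : V ↪ Fin n // ∀ z ∈ edgeImage A φ, ω z = true})) ?_
  intro x y hxy
  have hemb : (c x).toEmbedding = (c y).toEmbedding := congrArg Subtype.val hxy
  have hcxy : c x = c y := SimpleGraph.Copy.ext fun a => congrFun (congrArg (⇑) hemb) a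
  have hsub : x.1.1 = y.1.1 := by rw [← hc x, ← hc y, hcxy]
  obtain ⟨⟨G₁, hG₁⟩, σ₁⟩ := x
  obtain ⟨⟨G₂, hG₂⟩, σ₂⟩ := y
  simp only at hsub
  subst hsub
  refine Prod.ext rfl ?_
  refine RelIso.ext fun v => ?_
  have hv : (c (⟨G₁, hG₁⟩, σ₁)) v = (c (⟨G₁, hG₂⟩, σ₂)) v := by rw [hcxy]
  have hv' : ((Classical.choice hG₁) (σ₁ v) : Fin n) = ((Classical.choice hG₁) (σ₂ v) : Fin n) :=
    hv
  exact (Classical.choice hG₁).injective (Subtype.ext hv')

/-- automorphisms times the expected number of copies are at most `(n)_{|V|} p^{e(A)}` -/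
theorem aut_mul_expect_le (p : ℝ) (hp0 : 0 ≤ p) (hp1 : p ≤ 1) :
    (Nat.card (A ≃g A) : ℝ) * gnpExpect n p (fun G => (G.copyCount A : ℝ))
      ≤ (n.descFactorial (Fintype.card V) : ℝ) * p ^ A.edgeFinset.card := by
  unfold gnpExpect
  rw [mul_sum]
  calc ∑ ω : EdgeSlot n → Bool, (Nat.card (A ≃g A) : ℝ) *
          (Crest.FinProb.bernoulliWeight p ω * ((graphOf ω).copyCount A : ℝ))
      ≤ ∑ ω : EdgeSlot n → Bool, Crest.FinProb.bernoulliWeight p ω *
          ((univ.filter fun φ : V ↪ Fin n => ∀ z ∈ edgeImage A φ, ω z = true).card : ℝ) := by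
        refine sum_le_sum fun ω _ => ?_
        have h := copyCount_mul_aut_le A ω
        have h' : ((graphOf ω).copyCount A : ℝ) * (Nat.card (A ≃g A) : ℝ)
            ≤ ((univ.filter fun φ : V ↪ Fin n => ∀ z ∈ edgeImage A φ, ω z = true).card : ℝ) := by
          exact_mod_cast h
        have hw := bernoulliWeight_nonneg hp0 hp1 ω
        nlinarith [mul_le_mul_of_nonneg_left h' hw]
    _ = ∑ ω : EdgeSlot n → Bool, ∑ φ : V ↪ Fin n, Crest.FinProb.bernoulliWeight p ω *
          (if ∀ z ∈ edgeImage A φ, ω z = true then (1 : ℝ) else 0) := by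
        refine sum_congr rfl fun ω _ => ?_
        rw [card_filter, Nat.cast_sum, mul_sum]
        refine sum_congr rfl fun φ _ => ?_
        split_ifs <;> simp
    _ = ∑ φ : V ↪ Fin n, ∑ ω : EdgeSlot n → Bool, Crest.FinProb.bernoulliWeight p ω *
          (if ∀ z ∈ edgeImage A φ, ω z = true then (1 : ℝ) else 0) := sum_comm
    _ = ∑ _φ : V ↪ Fin n, p ^ A.edgeFinset.card := by
        refine sum_congr rfl fun φ _ => ?_
        rw [sum_weight_forall, card_edgeImage]
    _ = (n.descFactorial (Fintype.card V) : ℝ) * p ^ A.edgeFinset.card := by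
        rw [sum_const, card_univ, Fintype.card_embedding_eq, Fintype.card_fin, nsmul_eq_mul]

end Copies

section Subgraph
variable {W : Type} [Fintype W] (H : SimpleGraph W)

/-- **The hypothesis `hE` of S0076 in counting form**: a subgraph `F` of `H` whose expected number
of copies in `G(n, p)` is at least `1/2` has at most `2 (n)_{v(F)} p^{e(F)}` automorphisms. -/
theorem aut_le_of_expect_subgraph (n : ℕ) (p : ℝ) (hp0 : 0 ≤ p) (hp1 : p ≤ 1) (F : H.Subgraph)
    (hE : (1 : ℝ) / 2 ≤ gnpExpect n p (fun G => (G.copyCount F.coe : ℝ))) :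
    (Nat.card (F.coe ≃g F.coe) : ℝ)
      ≤ 2 * (n.descFactorial F.verts.ncard : ℝ) * p ^ F.edgeSet.ncard := by
  classical
  have h := aut_mul_expect_le (n := n) F.coe p hp0 hp1
  have hv : Fintype.card F.verts = F.verts.ncard := by
    rw [← Nat.card_eq_fintype_card, Nat.card_coe_set_eq]
  have he : F.coe.edgeFinset.card = F.edgeSet.ncard := by
    rw [← F.image_coe_edgeSet_coe,
      Set.ncard_image_of_injective _ (Sym2.map.injective Subtype.val_injective),
      ← SimpleGraph.coe_edgeFinset, Set.ncard_coe_finset]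
  rw [hv, he] at h
  have haut : (0 : ℝ) ≤ (Nat.card (F.coe ≃g F.coe) : ℝ) := Nat.cast_nonneg _
  have h2 := mul_le_mul_of_nonneg_left hE haut
  linarith

end Subgraph

end Crest.Agent.S0076R
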