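import Crest.Agent.S0076.SpreadHalf
import Crest.Prelude.Def_RandomGraph

/-!
# From a spread bound for the copies of `H` in `K_n` to containment in `G(n, q)`

The copies of `H` in the complete graph on `Fin n` are indexed by the injections
`φ : W ↪ Fin n`; `edgeImage H φ` is the set of coin positions (`EdgeSlot n`) occupied by the image
of the edges of `H`.  `H` is contained in `graphOf ω` exactly when some `edgeImage H φ` consists of
coins showing `true`, so the Park–Pham bound of `SpreadHalf.lean` applies to the uniform measure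
on the injections.
-/

open Finset
open Crest.CombinatoricsR.RandomGraph

namespace Crest.Agent.S0076R

section Graph
variable {n : ℕ} {W : Type} [Fintype W] (H : SimpleGraph W) [DecidableRel H.Adj]

/-- the slots of `K_n` occupied by the image of `H` under the injection `φ` -/
def edgeImage (φ : W ↪ Fin n) : Finset (EdgeSlot n) :=
  (H.edgeFinset.image (Sym2.map φ)).subtype (fun z => ¬ z.IsDiag)

lemma mem_edgeImage (φ : W ↪ Fin n) (z : EdgeSlot n) :
    z ∈ edgeImage H φ ↔ ∃ e ∈ H.edgeSet, Sym2.map φ e = z.1 := by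
  unfold edgeImage
  rw [Finset.mem_subtype, Finset.mem_image]
  simp only [SimpleGraph.mem_edgeFinset]

lemma card_edgeImage_le (φ : W ↪ Fin n) : (edgeImage H φ).card ≤ H.edgeFinset.card := by
  unfold edgeImage
  rw [Finset.card_subtype]
  exact (Finset.card_filter_le _ _).trans Finset.card_image_le

/-- The unfolding lemma of `edgeImage` is realised here, once. -/
theorem unfolding_lemmas_realised_graph : True := by
  have := @edgeImage.eq_1
  trivial

lemma isContained_graphOf_iff (ω : EdgeSlot n → Bool) :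
    H.IsContained (graphOf ω) ↔ ∃ φ : W ↪ Fin n, ∀ z ∈ edgeImage H φ, ω z = true := by
  constructor
  · rintro ⟨f⟩
    refine ⟨f.toEmbedding, fun z hz => ?_⟩
    obtain ⟨e, he, hez⟩ := (mem_edgeImage H _ z).1 hz
    induction e using Sym2.ind with
    | _ u v =>
      have hadj : H.Adj u v := he
      have h2 : (graphOf ω).Adj (f u) (f v) := f.toHom.map_adj hadj
      unfold graphOf at h2
      rw [SimpleGraph.fromEdgeSet_adj] at h2
      obtain ⟨⟨hnd, hω⟩, _⟩ := h2
      have hz' : z = ⟨s(f u, f v), hnd⟩ := Subtype.ext (by rw [← hez]; rfl)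
      rw [hz']
      exact hω
  · rintro ⟨φ, hφ⟩
    refine ⟨⟨⟨φ, ?_⟩, φ.injective⟩⟩
    intro u v hadj
    have hne : φ u ≠ φ v := fun h => hadj.ne (φ.injective h)
    have hnd : ¬ (s(φ u, φ v) : Sym2 (Fin n)).IsDiag := by
      rw [Sym2.mk_isDiag_iff]
      exact hne
    unfold graphOf
    rw [SimpleGraph.fromEdgeSet_adj]
    refine ⟨⟨hnd, hφ ⟨_, hnd⟩ ?_⟩, hne⟩
    exact (mem_edgeImage H φ _).2 ⟨s(u, v), hadj, rfl⟩

/-- **Spread ⇒ containment in `G(n, q)`.**  If, for every nonempty set `T` of coin positions,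
the fraction of the injections `φ : W ↪ Fin n` whose copy of `H` covers `T` is at most
`(a (1 + b / |T|)) ^ |T|`, then `G(n, q)` contains `H` with probability at least `1/2` as soon as
`q ≥ min 1 (16 a (1 + log₂ e(H)) + 64 a b)`. -/
theorem gnpProb_isContained_of_spread (hW : Fintype.card W ≤ n) (hH : 1 ≤ H.edgeFinset.card)
    (a b : ℝ) (ha : 0 < a) (hb : 0 ≤ b)
    (hspread : ∀ T : Finset (EdgeSlot n), T.Nonempty →
      ((univ.filter fun φ : W ↪ Fin n => T ⊆ edgeImage H φ).card : ℝ)
        ≤ (a * (1 + b / (T.card : ℝ))) ^ T.card * (Fintype.card (W ↪ Fin n) : ℝ))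
    (q : ℝ)
    (hq : min 1 (16 * a * (1 + Real.logb 2 (H.edgeFinset.card : ℝ)) + 64 * a * b) ≤ q)
    (hq1 : q ≤ 1) :
    (1 : ℝ) / 2 ≤ gnpProb n q {G | H.IsContained G} := by
  have : Nonempty (W ↪ Fin n) :=
    Function.Embedding.nonempty_of_card_le (by rw [Fintype.card_fin]; exact hW)
  have h := spread_half_log_indexed (fun φ : W ↪ Fin n => edgeImage H φ) a b ha hb hspread
    H.edgeFinset.card hH (fun φ => card_edgeImage_le H φ) q hq hq1
  have hset : {ω : EdgeSlot n → Bool | graphOf ω ∈ {G | H.IsContained G}}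
      = {ω : EdgeSlot n → Bool | ∃ φ : W ↪ Fin n, ∀ z ∈ edgeImage H φ, ω z = true} := by
    ext ω
    exact isContained_graphOf_iff H ω
  show (1 : ℝ) / 2 ≤ Crest.FinProb.bernoulliProb q
    {ω : EdgeSlot n → Bool | graphOf ω ∈ {G | H.IsContained G}}
  exact hset ▸ h

end Graph

end Crest.Agent.S0076R
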