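import Mathlib
import Crest.Prelude.Def_RandomGraph

/-!
# From the expectation hypothesis `hE` to the counting / automorphism form of `(E)`

* `sum_bernoulliWeight_forall_true`: the probability that all coins of a finite set `S` show
  `true` is `p ^ |S|` (exact sum, any real `p`).
* `gnpExpect_copyCount`: `E_{G(n,p)} [#copies of F] = #copies of F in K_n * p ^ e(F)`.
* `copyCount_top_mul_aut`: `#copies of F in K_n * |Aut F| = n (n-1) ⋯ (n - v(F) + 1)`.
-/

set_option autoImplicit false

open Finset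
open Crest.CombinatoricsR.RandomGraph Crest.FinProb

namespace Crest.Agent.S0076R.HE39

section Bernoulli
variable {ι : Type*} [Fintype ι] [DecidableEq ι]

/-- The probability that all coins of `S` show `true` is `p ^ |S|`. -/
lemma sum_bernoulliWeight_forall_true (p : ℝ) (S : Finset ι) :
    ∑ ω : ι → Bool, bernoulliWeight p ω * (if ∀ i ∈ S, ω i = true then (1 : ℝ) else 0)
      = p ^ S.card := by
  classical
  have key : ∀ ω : ι → Bool,
      bernoulliWeight p ω * (if ∀ i ∈ S, ω i = true then (1 : ℝ) else 0)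
        = ∏ i, ((if ω i then p else 1 - p) * (if i ∈ S ∧ ω i = false then (0 : ℝ) else 1)) := by
    intro ω
    rw [Finset.prod_mul_distrib]
    unfold bernoulliWeight
    congr 1
    by_cases h : ∀ i ∈ S, ω i = true
    · rw [if_pos h]
      symm
      apply Finset.prod_eq_one
      intro i _
      rw [if_neg]
      rintro ⟨hi, hf⟩
      rw [h i hi] at hf
      exact Bool.noConfusion hf
    · rw [if_neg h]
      push Not at h
      obtain ⟨i, hi, hne⟩ := h
      symm
      apply Finset.prod_eq_zero (Finset.mem_univ i)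
      rw [if_pos]
      exact ⟨hi, by simpa using hne⟩
  rw [Finset.sum_congr rfl (fun ω _ => key ω)]
  have h2 := Finset.prod_univ_sum (fun _ : ι => (Finset.univ : Finset Bool))
    (fun (i : ι) (b : Bool) =>
      ((if b then p else 1 - p) * (if i ∈ S ∧ b = false then (0 : ℝ) else 1)))
  rw [Fintype.piFinset_univ] at h2
  rw [← h2]
  have h3 : ∀ i : ι, ∑ b : Bool,
      ((if b then p else 1 - p) * (if i ∈ S ∧ b = false then (0 : ℝ) else 1))
        = if i ∈ S then p else 1 := by
    intro i
    rw [Fintype.sum_bool]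
    by_cases hi : i ∈ S
    · simp [hi]
    · simp [hi]
  rw [Finset.prod_congr rfl (fun i _ => h3 i)]
  rw [Finset.prod_ite_mem, Finset.univ_inter, Finset.prod_const]

end Bernoulli


section Copies
variable {n : ℕ}

/-- a subgraph of a graph on `Fin n`, seen as a subgraph of the complete graph -/
def toTop {G : SimpleGraph (Fin n)} (G' : G.Subgraph) :
    (⊤ : SimpleGraph (Fin n)).Subgraph where
  verts := G'.verts
  Adj := G'.Adj
  adj_sub := fun h => (SimpleGraph.top_adj _ _).2 (G'.adj_sub h).ne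
  edge_vert := G'.edge_vert
  symm := G'.symm

lemma toTop_injective {G : SimpleGraph (Fin n)} :
    Function.Injective (toTop (G := G)) := by
  intro A B h
  have h1 : A.verts = B.verts :=
    congrArg (fun K : (⊤ : SimpleGraph (Fin n)).Subgraph => K.verts) h
  have h2 : A.Adj = B.Adj :=
    congrArg (fun K : (⊤ : SimpleGraph (Fin n)).Subgraph => K.Adj) h
  exact SimpleGraph.Subgraph.ext h1 h2

/-- the coin positions of the edges of a subgraph of the complete graph -/
noncomputable def slotsOf (K : (⊤ : SimpleGraph (Fin n)).Subgraph) : Finset (EdgeSlot n) := by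
  classical exact Finset.univ.filter (fun z => z.1 ∈ K.edgeSet)

lemma mem_slotsOf (K : (⊤ : SimpleGraph (Fin n)).Subgraph) (z : EdgeSlot n) :
    z ∈ slotsOf K ↔ z.1 ∈ K.edgeSet := by
  classical
  unfold slotsOf
  simp

lemma card_slotsOf (K : (⊤ : SimpleGraph (Fin n)).Subgraph) :
    (slotsOf K).card = Nat.card K.edgeSet := by
  classical
  rw [← Nat.card_eq_finsetCard]
  apply Nat.card_congr
  refine Equiv.ofBijective
    (fun z : {z // z ∈ slotsOf K} => (⟨z.1.1, (mem_slotsOf K z.1).1 z.2⟩ : K.edgeSet)) ⟨?_, ?_⟩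
  · intro a b hab
    apply Subtype.ext
    apply Subtype.ext
    exact congrArg (fun x : K.edgeSet => (x : Sym2 (Fin n))) hab
  · rintro ⟨e, he⟩
    have hnd : ¬ e.IsDiag := by
      have := K.edgeSet_subset he
      exact SimpleGraph.not_isDiag_of_mem_edgeSet _ this
    exact ⟨⟨⟨e, hnd⟩, (mem_slotsOf K _).2 he⟩, rfl⟩

variable {V : Type*} (F : SimpleGraph V)

lemma card_edgeSet_of_iso (K : (⊤ : SimpleGraph (Fin n)).Subgraph) (e : F ≃g K.coe) :
    Nat.card K.edgeSet = Nat.card F.edgeSet := by
  have h1 : Nat.card F.edgeSet = Nat.card K.coe.edgeSet := Nat.card_congr e.mapEdgeSet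
  rw [h1]
  have h2 := SimpleGraph.Subgraph.image_coe_edgeSet_coe K
  rw [← h2]
  exact Nat.card_image_of_injective (Sym2.map.injective Subtype.val_injective) _

/-- the copies of `F` in the complete graph on `Fin n`, as subgraphs -/
noncomputable def copiesTop (n : ℕ) (F : SimpleGraph V) :
    Finset (⊤ : SimpleGraph (Fin n)).Subgraph := by
  classical exact Finset.univ.filter (fun K => Nonempty (F ≃g K.coe))

lemma mem_copiesTop (K : (⊤ : SimpleGraph (Fin n)).Subgraph) :
    K ∈ copiesTop n F ↔ Nonempty (F ≃g K.coe) := by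
  classical
  unfold copiesTop
  simp

lemma card_copiesTop :
    (copiesTop n F).card = (⊤ : SimpleGraph (Fin n)).copyCount F := by
  classical
  unfold copiesTop SimpleGraph.copyCount
  apply Finset.card_bij (fun K _ => K)
  · intro K hK
    simp only [Finset.mem_filter, Finset.mem_univ, true_and] at hK ⊢
    exact hK
  · intro A _ B _ h
    exact h
  · intro K hK
    simp only [Finset.mem_filter, Finset.mem_univ, true_and] at hK
    exact ⟨K, by simp only [Finset.mem_filter, Finset.mem_univ, true_and]; exact hK, rfl⟩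

/-- a subgraph of the complete graph all of whose edges are edges of `G`, as a subgraph of `G` -/
def ofTop {G : SimpleGraph (Fin n)} (K : (⊤ : SimpleGraph (Fin n)).Subgraph)
    (h : ∀ a b, K.Adj a b → G.Adj a b) : G.Subgraph where
  verts := K.verts
  Adj := K.Adj
  adj_sub := fun hab => h _ _ hab
  edge_vert := K.edge_vert
  symm := K.symm

lemma toTop_ofTop {G : SimpleGraph (Fin n)} (K : (⊤ : SimpleGraph (Fin n)).Subgraph)
    (h : ∀ a b, K.Adj a b → G.Adj a b) : toTop (ofTop K h) = K :=
  SimpleGraph.Subgraph.ext rfl rfl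

lemma adj_graphOf_of_slots (ω : EdgeSlot n → Bool) (K : (⊤ : SimpleGraph (Fin n)).Subgraph)
    (hK : ∀ z ∈ slotsOf K, ω z = true) (a b : Fin n) (hab : K.Adj a b) :
    (graphOf ω).Adj a b := by
  have hne : a ≠ b := (SimpleGraph.top_adj _ _).1 (K.adj_sub hab)
  have hnd : ¬ (s(a, b) : Sym2 (Fin n)).IsDiag := by
    rw [Sym2.mk_isDiag_iff]
    exact hne
  unfold graphOf
  rw [SimpleGraph.fromEdgeSet_adj]
  refine ⟨⟨hnd, hK ⟨_, hnd⟩ ?_⟩, hne⟩
  rw [mem_slotsOf]
  exact hab

lemma slots_true_of_toTop (ω : EdgeSlot n → Bool) (G' : (graphOf ω).Subgraph) :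
    ∀ z ∈ slotsOf (toTop G'), ω z = true := by
  intro z hz
  rw [mem_slotsOf] at hz
  obtain ⟨e, hnd⟩ := z
  induction e using Sym2.ind with
  | _ a b =>
    have hadj : G'.Adj a b := hz
    have h2 : (graphOf ω).Adj a b := G'.adj_sub hadj
    unfold graphOf at h2
    rw [SimpleGraph.fromEdgeSet_adj] at h2
    obtain ⟨⟨hnd', hω⟩, _⟩ := h2
    exact hω

lemma iso_toTop_iff {G : SimpleGraph (Fin n)} (G' : G.Subgraph) :
    Nonempty (F ≃g (toTop G').coe) ↔ Nonempty (F ≃g G'.coe) := Iff.rfl

lemma copyCount_graphOf (ω : EdgeSlot n → Bool) :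
    (graphOf ω).copyCount F
      = ((copiesTop n F).filter (fun K => ∀ z ∈ slotsOf K, ω z = true)).card := by
  classical
  unfold SimpleGraph.copyCount
  apply Finset.card_bij (fun G' _ => toTop G')
  · intro G' hG'
    simp only [Finset.mem_filter, Finset.mem_univ, true_and] at hG'
    rw [Finset.mem_filter]
    exact ⟨(mem_copiesTop F _).2 ((iso_toTop_iff F G').2 hG'), slots_true_of_toTop ω G'⟩
  · intro A _ B _ h
    exact toTop_injective h
  · intro K hK
    rw [Finset.mem_filter] at hK
    obtain ⟨hK1, hK2⟩ := hK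
    have hsub : ∀ a b, K.Adj a b → (graphOf ω).Adj a b := adj_graphOf_of_slots ω K hK2
    have hiso : Nonempty (F ≃g (ofTop K hsub).coe) := by
      have h1 := (mem_copiesTop F K).1 hK1
      rw [← toTop_ofTop K hsub] at h1
      exact (iso_toTop_iff F _).1 h1
    exact ⟨ofTop K hsub, by
      simp only [Finset.mem_filter, Finset.mem_univ, true_and]; exact hiso, toTop_ofTop K hsub⟩

/-- **(HE1)** The expected number of copies of `F` in `G(n,p)` is the number of copies of `F`
in the complete graph times `p ^ e(F)`. -/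
theorem gnpExpect_copyCount (p : ℝ) :
    gnpExpect n p (fun G => (G.copyCount F : ℝ))
      = ((⊤ : SimpleGraph (Fin n)).copyCount F : ℝ) * p ^ (Nat.card F.edgeSet) := by
  classical
  unfold gnpExpect
  have h1 : ∀ ω : EdgeSlot n → Bool,
      bernoulliWeight p ω * ((graphOf ω).copyCount F : ℝ)
        = ∑ K ∈ copiesTop n F,
            bernoulliWeight p ω * (if ∀ z ∈ slotsOf K, ω z = true then (1 : ℝ) else 0) := by
    intro ω
    rw [copyCount_graphOf F ω, Finset.card_filter, Nat.cast_sum, Finset.mul_sum]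
    apply Finset.sum_congr rfl
    intro K _
    congr 1
    split_ifs <;> simp
  rw [Finset.sum_congr rfl (fun ω _ => h1 ω), Finset.sum_comm]
  have h2 : ∀ K ∈ copiesTop n F,
      ∑ ω : EdgeSlot n → Bool,
          bernoulliWeight p ω * (if ∀ z ∈ slotsOf K, ω z = true then (1 : ℝ) else 0)
        = p ^ (Nat.card F.edgeSet) := by
    intro K hK
    rw [sum_bernoulliWeight_forall_true p (slotsOf K), card_slotsOf]
    obtain ⟨e⟩ := (mem_copiesTop F K).1 hK
    rw [card_edgeSet_of_iso F K e]
  rw [Finset.sum_congr rfl h2, Finset.sum_const, card_copiesTop, nsmul_eq_mul]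

/-- an injection of the vertices into `Fin n` is a copy in the complete graph -/
def embCopy (φ : V ↪ Fin n) : F.Copy (⊤ : SimpleGraph (Fin n)) :=
  ⟨⟨φ, fun {_ _} h => (SimpleGraph.top_adj _ _).2 (fun hab => h.ne (φ.injective hab))⟩,
    φ.injective⟩

/-- the embedding obtained from an isomorphism onto a subgraph of the complete graph -/
def isoEmb (K : (⊤ : SimpleGraph (Fin n)).Subgraph) (e : F ≃g K.coe) : V ↪ Fin n :=
  ⟨fun a => ((e a : K.verts) : Fin n), fun _ _ h => e.injective (Subtype.ext h)⟩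

lemma embCopy_isoEmb_toSubgraph (K : (⊤ : SimpleGraph (Fin n)).Subgraph) (e : F ≃g K.coe) :
    (embCopy F (isoEmb F K e)).toSubgraph = K := by
  have h : embCopy F (isoEmb F K e)
      = ⟨K.hom.comp e.toHom, SimpleGraph.Subgraph.hom_injective.comp e.injective⟩ := by
    ext a
    rfl
  rw [h]
  simp [SimpleGraph.Copy.toSubgraph, SimpleGraph.Subgraph.map_comp]

lemma isoEmb_isoToSubgraph (φ : V ↪ Fin n) :
    isoEmb F (embCopy F φ).toSubgraph (embCopy F φ).isoToSubgraph = φ := by
  ext a
  rfl

lemma card_fibre (K : (⊤ : SimpleGraph (Fin n)).Subgraph) :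
    Nat.card {φ : V ↪ Fin n // (embCopy F φ).toSubgraph = K} = Nat.card (F ≃g K.coe) := by
  symm
  apply Nat.card_congr
  refine Equiv.ofBijective
    (fun e : F ≃g K.coe => (⟨isoEmb F K e, embCopy_isoEmb_toSubgraph F K e⟩ :
      {φ : V ↪ Fin n // (embCopy F φ).toSubgraph = K})) ⟨?_, ?_⟩
  · intro e e' h
    have h1 : isoEmb F K e = isoEmb F K e' := congrArg Subtype.val h
    apply RelIso.ext
    intro a
    apply Subtype.ext
    exact congrArg (fun ψ : V ↪ Fin n => ψ a) h1
  · rintro ⟨φ, hφ⟩
    subst hφ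
    exact ⟨(embCopy F φ).isoToSubgraph, Subtype.ext (isoEmb_isoToSubgraph F φ)⟩

lemma card_iso_eq_aut (K : (⊤ : SimpleGraph (Fin n)).Subgraph) (e₀ : F ≃g K.coe) :
    Nat.card (F ≃g K.coe) = Nat.card (F ≃g F) := by
  symm
  apply Nat.card_congr
  exact
    { toFun := fun α => e₀.comp α
      invFun := fun e => e₀.symm.comp e
      left_inv := fun α => by
        apply RelIso.ext
        intro a
        simp
      right_inv := fun e => by
        apply RelIso.ext
        intro a
        simp }

/-- **(HE2)** orbit counting: the number of copies of `F` in the complete graph on `Fin n`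
times the number of automorphisms of `F` is the number of injections `V(F) → Fin n`. -/
theorem copyCount_top_mul_aut [Finite V] :
    (⊤ : SimpleGraph (Fin n)).copyCount F * Nat.card (F ≃g F)
      = n.descFactorial (Nat.card V) := by
  classical
  have := Fintype.ofFinite V
  have hcard : Fintype.card (V ↪ Fin n) = n.descFactorial (Fintype.card V) := by
    rw [Fintype.card_embedding_eq, Fintype.card_fin]
  have hfib := Finset.card_eq_sum_card_fiberwise (s := (Finset.univ : Finset (V ↪ Fin n)))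
    (t := copiesTop n F) (f := fun φ => (embCopy F φ).toSubgraph)
    (fun φ _ => (mem_copiesTop F _).2 ⟨(embCopy F φ).isoToSubgraph⟩)
  have hK : ∀ K ∈ copiesTop n F,
      ((Finset.univ : Finset (V ↪ Fin n)).filter
        (fun φ => (embCopy F φ).toSubgraph = K)).card = Nat.card (F ≃g F) := by
    intro K hK
    obtain ⟨e₀⟩ := (mem_copiesTop F K).1 hK
    rw [← card_iso_eq_aut F K e₀, ← card_fibre F K, Nat.card_eq_fintype_card,
      Fintype.card_subtype]
  rw [Finset.sum_congr rfl hK, Finset.sum_const, smul_eq_mul, Finset.card_univ, hcard,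
    card_copiesTop] at hfib
  rw [Nat.card_eq_fintype_card (α := V)]
  exact hfib.symm

/-- **(HE3), counting form**: if the expected number of copies of `F` in `G(n,p)` is at least
`1/2`, then `N(F, K_n) p^{e(F)} ≥ 1/2`. -/
theorem half_le_copyCount_top_mul_pow (p : ℝ)
    (h : (1 : ℝ) / 2 ≤ gnpExpect n p (fun G => (G.copyCount F : ℝ))) :
    (1 : ℝ) / 2 ≤ ((⊤ : SimpleGraph (Fin n)).copyCount F : ℝ) * p ^ (Nat.card F.edgeSet) := by
  rw [← gnpExpect_copyCount]
  exact h

/-- **(HE3), automorphism form**: if the expected number of copies of `F` in `G(n,p)` is at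
least `1/2`, then `|Aut F| ≤ 2 (n)_{v(F)} p^{e(F)}`. -/
theorem aut_le_of_half_le_gnpExpect [Finite V] (p : ℝ) (hp : 0 ≤ p)
    (h : (1 : ℝ) / 2 ≤ gnpExpect n p (fun G => (G.copyCount F : ℝ))) :
    (Nat.card (F ≃g F) : ℝ)
      ≤ 2 * (n.descFactorial (Nat.card V) : ℝ) * p ^ (Nat.card F.edgeSet) := by
  have h1 := half_le_copyCount_top_mul_pow F p h
  have h2 : ((⊤ : SimpleGraph (Fin n)).copyCount F : ℝ) * (Nat.card (F ≃g F) : ℝ)
      = (n.descFactorial (Nat.card V) : ℝ) := by
    exact_mod_cast copyCount_top_mul_aut (n := n) F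
  have hA : (1 : ℝ) ≤ (Nat.card (F ≃g F) : ℝ) := by
    have : 0 < Nat.card (F ≃g F) := by
      have : Finite (F ≃g F) := Finite.of_injective (fun e : F ≃g F => (e : V → V))
        DFunLike.coe_injective
      exact Nat.card_pos_iff.2 ⟨⟨SimpleGraph.Iso.refl⟩, inferInstance⟩
    exact_mod_cast this
  have hpe : 0 ≤ p ^ (Nat.card F.edgeSet) := pow_nonneg hp _
  have hc : (0 : ℝ) ≤ ((⊤ : SimpleGraph (Fin n)).copyCount F : ℝ) := Nat.cast_nonneg _
  calc (Nat.card (F ≃g F) : ℝ)
      = 2 * ((1 : ℝ) / 2) * (Nat.card (F ≃g F) : ℝ) := by ring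
    _ ≤ 2 * (((⊤ : SimpleGraph (Fin n)).copyCount F : ℝ) * p ^ (Nat.card F.edgeSet))
          * (Nat.card (F ≃g F) : ℝ) := by
        have hA0 : (0 : ℝ) ≤ (Nat.card (F ≃g F) : ℝ) := le_trans zero_le_one hA
        nlinarith
    _ = 2 * (((⊤ : SimpleGraph (Fin n)).copyCount F : ℝ) * (Nat.card (F ≃g F) : ℝ))
          * p ^ (Nat.card F.edgeSet) := by ring
    _ = 2 * (n.descFactorial (Nat.card V) : ℝ) * p ^ (Nat.card F.edgeSet) := by rw [h2]

end Copies

section Host
variable {n : ℕ} {W : Type*} (H : SimpleGraph W)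

lemma card_coe_edgeSet (U : H.Subgraph) : Nat.card U.coe.edgeSet = Nat.card U.edgeSet := by
  have h2 := SimpleGraph.Subgraph.image_coe_edgeSet_coe U
  rw [← h2]
  exact (Nat.card_image_of_injective (Sym2.map.injective Subtype.val_injective) _).symm

/-- **(E), counting form**, for the subgraphs of the host: `N(U, K_n) p^{e(U)} ≥ 1/2`. -/
theorem E_count (p : ℝ)
    (hE : ∀ U : H.Subgraph, (1 : ℝ) / 2 ≤ gnpExpect n p (fun G => (G.copyCount U.coe : ℝ)))
    (U : H.Subgraph) :
    (1 : ℝ) / 2 ≤ ((⊤ : SimpleGraph (Fin n)).copyCount U.coe : ℝ) * p ^ (Nat.card U.edgeSet) := by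
  rw [← card_coe_edgeSet]
  exact half_le_copyCount_top_mul_pow U.coe p (hE U)

/-- **(E), automorphism form**, for the subgraphs of the host:
`|Aut U| ≤ 2 (n)_{v(U)} p^{e(U)}`. -/
theorem E_aut [Finite W] (p : ℝ) (hp : 0 ≤ p)
    (hE : ∀ U : H.Subgraph, (1 : ℝ) / 2 ≤ gnpExpect n p (fun G => (G.copyCount U.coe : ℝ)))
    (U : H.Subgraph) :
    (Nat.card (U.coe ≃g U.coe) : ℝ)
      ≤ 2 * (n.descFactorial (Nat.card U.verts) : ℝ) * p ^ (Nat.card U.edgeSet) := by
  rw [← card_coe_edgeSet]
  exact aut_le_of_half_le_gnpExpect U.coe p hp (hE U)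

end Host

end Crest.Agent.S0076R.HE39

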