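import Crest.Agent.S0076.Graph

/-!
# Double counting: injections covering `T` versus embeddings of `T` into `H`

For a set `T` of coin positions of `K_n` let `vertsT T` be the set of its endpoints and
`graphT T` the graph on these vertices with edge set `T`.  An injection `φ : W ↪ Fin n` whose
copy of `H` covers `T` restricts to an injective homomorphism `ψ = φ⁻¹ : graphT T → H`, and every
`ψ` has the same number of extensions `φ`.  Hence (`card_cover_mul`)

`#{φ : W ↪ Fin n | T ⊆ edgeImage H φ} · (n)_{v(T)} = #{ψ : V(T) ↪ W | ψ hom} · (n)_{|W|}`.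
-/

open Finset
open Crest.CombinatoricsR.RandomGraph

namespace Crest.Agent.S0076R

section Fibre
variable {α β γ : Type*}

/-- the number of extensions of `ψ⁻¹` does not depend on the target embedding -/
lemma card_ext_eq [Finite α] (ψ : α ↪ γ) (ι₁ ι₂ : α ↪ β) :
    Nat.card {φ : γ ↪ β // ∀ a, φ (ψ a) = ι₁ a} = Nat.card {φ : γ ↪ β // ∀ a, φ (ψ a) = ι₂ a} := by
  obtain ⟨π, hπ⟩ := Equiv.Perm.exists_extending_pair ι₁ ι₂ ι₁.injective ι₂.injective
  refine Nat.card_congr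
    { toFun := fun φ => ⟨φ.1.trans π.toEmbedding, fun a => ?_⟩
      invFun := fun φ => ⟨φ.1.trans π.symm.toEmbedding, fun a => ?_⟩
      left_inv := fun φ => ?_
      right_inv := fun φ => ?_ }
  · show π (φ.1 (ψ a)) = ι₂ a
    rw [φ.2 a, hπ a]
  · show π.symm (φ.1 (ψ a)) = ι₁ a
    rw [φ.2 a, ← hπ a, Equiv.symm_apply_apply]
  · refine Subtype.ext (Function.Embedding.ext fun w => ?_)
    show π.symm (π (φ.1 w)) = φ.1 w
    rw [Equiv.symm_apply_apply]
  · refine Subtype.ext (Function.Embedding.ext fun w => ?_)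
    show π (π.symm (φ.1 w)) = φ.1 w
    rw [Equiv.apply_symm_apply]

/-- the number of embeddings `γ ↪ β` extending a prescribed embedding of a part of `γ` -/
lemma card_ext_mul [Finite α] [Finite β] [Finite γ] (ψ : α ↪ γ) (ι₀ : α ↪ β) :
    Nat.card {φ : γ ↪ β // ∀ a, φ (ψ a) = ι₀ a} * Nat.card (α ↪ β) = Nat.card (γ ↪ β) := by
  have : Fintype (α ↪ β) := Fintype.ofFinite _
  have h1 : Nat.card (γ ↪ β)
      = ∑ ι' : α ↪ β, Nat.card {φ : γ ↪ β // ψ.trans φ = ι'} := by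
    rw [← Nat.card_sigma]
    exact Nat.card_congr (Equiv.sigmaFiberEquiv fun φ : γ ↪ β => ψ.trans φ).symm
  have h2 : ∀ ι' : α ↪ β, Nat.card {φ : γ ↪ β // ψ.trans φ = ι'}
      = Nat.card {φ : γ ↪ β // ∀ a, φ (ψ a) = ι₀ a} := by
    intro ι'
    rw [card_ext_eq ψ ι₀ ι']
    refine Nat.card_congr (Equiv.subtypeEquivRight fun φ => ?_)
    constructor
    · intro h a
      rw [← h]
      rfl
    · intro h
      exact Function.Embedding.ext h
  rw [h1, sum_congr rfl (fun ι' _ => h2 ι'), sum_const, card_univ, smul_eq_mul,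
    Nat.card_eq_fintype_card (α := α ↪ β), mul_comm]

end Fibre

section Cover
variable {n : ℕ} {W : Type} [Fintype W] (H : SimpleGraph W) [DecidableRel H.Adj]

/-- the endpoints of the coin positions in `T` -/
def vertsT (T : Finset (EdgeSlot n)) : Finset (Fin n) := T.biUnion fun z => z.1.toFinset

lemma mem_vertsT (T : Finset (EdgeSlot n)) (x : Fin n) : x ∈ vertsT T ↔ ∃ z ∈ T, x ∈ z.1 := by
  unfold vertsT
  rw [mem_biUnion]
  simp only [Sym2.mem_toFinset]

/-- the graph on the endpoints of `T` whose edges are the positions in `T` -/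
def graphT (T : Finset (EdgeSlot n)) : SimpleGraph {x // x ∈ vertsT T} where
  Adj x y := ∃ z ∈ T, z.1 = s(x.1, y.1)
  symm := ⟨fun x y ⟨z, hz, h⟩ => ⟨z, hz, by rw [h, Sym2.eq_swap]⟩⟩
  loopless := ⟨fun x ⟨z, _, h⟩ => z.2 (by rw [h]; exact Sym2.mk_isDiag_iff.2 rfl)⟩

lemma graphT_adj (T : Finset (EdgeSlot n)) (x y : {x // x ∈ vertsT T}) :
    (graphT T).Adj x y ↔ ∃ z ∈ T, z.1 = s(x.1, y.1) := Iff.rfl

/-- `ψ` maps every edge of `graphT T` to an edge of `H` -/
def IsHomT (T : Finset (EdgeSlot n)) (ψ : {x // x ∈ vertsT T} ↪ W) : Prop :=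
  ∀ x y, (graphT T).Adj x y → H.Adj (ψ x) (ψ y)

/-- The unfolding lemmas of the definitions of this file are realised here, once. -/
theorem unfolding_lemmas_realised_inj : True := by
  have := @vertsT.eq_1
  have := @graphT.eq_1
  have := @IsHomT.eq_1
  trivial

variable {H}

lemma exists_preimage {T : Finset (EdgeSlot n)} {φ : W ↪ Fin n} (h : T ⊆ edgeImage H φ)
    (x : {x // x ∈ vertsT T}) : ∃ w, φ w = x.1 := by
  obtain ⟨z, hz, hxz⟩ := (mem_vertsT T x.1).1 x.2
  obtain ⟨e, _, he⟩ := (mem_edgeImage H φ z).1 (h hz)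
  rw [← he, Sym2.mem_map] at hxz
  obtain ⟨w, _, hw⟩ := hxz
  exact ⟨w, hw⟩

lemma isHomT_of_cover {T : Finset (EdgeSlot n)} {φ : W ↪ Fin n} (h : T ⊆ edgeImage H φ)
    (ψ : {x // x ∈ vertsT T} ↪ W) (hψ : ∀ x, φ (ψ x) = x.1) : IsHomT H T ψ := by
  rintro x y ⟨z, hz, hzxy⟩
  obtain ⟨e, he, hez⟩ := (mem_edgeImage H φ z).1 (h hz)
  induction e using Sym2.ind with
  | _ a b =>
    have hadj : H.Adj a b := he
    have h2 : s(φ a, φ b) = s(x.1, y.1) := by
      rw [← hzxy, ← hez]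
      rfl
    rcases Sym2.eq_iff.1 h2 with ⟨h3, h4⟩ | ⟨h3, h4⟩
    · have ha : a = ψ x := φ.injective (by rw [h3, hψ x])
      have hb : b = ψ y := φ.injective (by rw [h4, hψ y])
      rw [← ha, ← hb]
      exact hadj
    · have ha : a = ψ y := φ.injective (by rw [h3, hψ y])
      have hb : b = ψ x := φ.injective (by rw [h4, hψ x])
      rw [← ha, ← hb]
      exact hadj.symm

lemma cover_of_isHomT {T : Finset (EdgeSlot n)} {φ : W ↪ Fin n}
    (ψ : {x // x ∈ vertsT T} ↪ W) (hhom : IsHomT H T ψ) (hψ : ∀ x, φ (ψ x) = x.1) :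
    T ⊆ edgeImage H φ := by
  intro z hz
  rw [mem_edgeImage]
  obtain ⟨z0, hz0⟩ := z
  induction z0 using Sym2.ind with
  | _ x y =>
    have hx : x ∈ vertsT T := (mem_vertsT T x).2 ⟨_, hz, Sym2.mem_mk_left x y⟩
    have hy : y ∈ vertsT T := (mem_vertsT T y).2 ⟨_, hz, Sym2.mem_mk_right x y⟩
    have hadj : H.Adj (ψ ⟨x, hx⟩) (ψ ⟨y, hy⟩) := hhom ⟨x, hx⟩ ⟨y, hy⟩ ⟨_, hz, rfl⟩
    refine ⟨s(ψ ⟨x, hx⟩, ψ ⟨y, hy⟩), hadj, ?_⟩
    show s(φ (ψ ⟨x, hx⟩), φ (ψ ⟨y, hy⟩)) = s(x, y)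
    rw [hψ ⟨x, hx⟩, hψ ⟨y, hy⟩]

variable (H)

/-- **Double counting.** -/
theorem card_cover_mul (T : Finset (EdgeSlot n)) :
    (univ.filter fun φ : W ↪ Fin n => T ⊆ edgeImage H φ).card * n.descFactorial (vertsT T).card
      = Nat.card {ψ : {x // x ∈ vertsT T} ↪ W // IsHomT H T ψ}
          * n.descFactorial (Fintype.card W) := by
  classical
  have : Fintype {ψ : {x // x ∈ vertsT T} ↪ W // IsHomT H T ψ} := Fintype.ofFinite _
  -- the covering injections as a sigma type over the embeddings of `T`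
  have h1 : (univ.filter fun φ : W ↪ Fin n => T ⊆ edgeImage H φ).card
      = Nat.card (Σ ψ : {ψ : {x // x ∈ vertsT T} ↪ W // IsHomT H T ψ},
          {φ : W ↪ Fin n // ∀ x, φ (ψ.1 x) = x.1}) := by
    rw [← Nat.card_eq_finsetCard]
    symm
    refine Nat.card_congr (Equiv.ofBijective
      (fun p => ⟨p.2.1, by
        rw [mem_filter]
        exact ⟨mem_univ _, cover_of_isHomT p.1.1 p.1.2 p.2.2⟩⟩) ⟨?_, ?_⟩)
    · rintro ⟨⟨ψ₁, h₁⟩, ⟨φ₁, hφ₁⟩⟩ ⟨⟨ψ₂, h₂⟩, ⟨φ₂, hφ₂⟩⟩ heq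
      have hφ : φ₁ = φ₂ := congrArg Subtype.val heq
      subst hφ
      have hψ : ψ₁ = ψ₂ := Function.Embedding.ext fun x => φ₁.injective (by rw [hφ₁ x, hφ₂ x])
      subst hψ
      rfl
    · rintro ⟨φ, hφ⟩
      rw [mem_filter] at hφ
      have hcov := hφ.2
      have hex := fun x => exists_preimage hcov x
      let ψ : {x // x ∈ vertsT T} ↪ W :=
        ⟨fun x => Classical.choose (hex x), fun x y hxy => by
          have hx := Classical.choose_spec (hex x)
          have hy := Classical.choose_spec (hex y)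
          apply Subtype.ext
          rw [← hx, ← hy]
          exact congrArg φ hxy⟩
      have hψ : ∀ x, φ (ψ x) = x.1 := fun x => Classical.choose_spec (hex x)
      exact ⟨⟨⟨ψ, isHomT_of_cover hcov ψ hψ⟩, ⟨φ, hψ⟩⟩, rfl⟩
  have h2 : ∀ ψ : {ψ : {x // x ∈ vertsT T} ↪ W // IsHomT H T ψ},
      Nat.card {φ : W ↪ Fin n // ∀ x, φ (ψ.1 x) = x.1} * n.descFactorial (vertsT T).card
        = n.descFactorial (Fintype.card W) := by
    intro ψ
    have h := card_ext_mul ψ.1 (Function.Embedding.subtype (fun x : Fin n => x ∈ vertsT T))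
    rw [Nat.card_eq_fintype_card (α := {x // x ∈ vertsT T} ↪ Fin n),
      Nat.card_eq_fintype_card (α := W ↪ Fin n),
      Fintype.card_embedding_eq, Fintype.card_embedding_eq, Fintype.card_fin,
      Fintype.card_coe] at h
    exact h
  rw [h1, Nat.card_sigma, sum_mul, sum_congr rfl (fun ψ _ => h2 ψ), sum_const, card_univ,
    smul_eq_mul, Nat.card_eq_fintype_card]

end Cover

end Crest.Agent.S0076R
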