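import Crest.Agent.S0076.Expect
import Crest.Agent.S0076.Inj

/-!
# S0076 reduced to one counting inequality

* `ExpCond n H p` — the expectation hypothesis `hE` of S0076 in counting form: every finite graph
  `A` that has a copy in `H` has at most `2 (n)_{v(A)} p^{e(A)}` automorphisms
  (`expCond_of_expect`).
* `WBL K A` — the counting inequality: under `ExpCond n H p`, for every nonempty set `T` of edges
  of `K_n` the number of injective homomorphisms of the graph `(V(T), T)` into `H` is at most
  `(n)_{v(T)} (K p (1 + A log e(H) / |T|))^{|T|}`.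
* `result_of_WBL` — `WBL K A` with `K (16 + 64 A) ≤ 2048 e^50` implies the statement of S0076.
-/

open Finset
open Crest.CombinatoricsR.RandomGraph

namespace Crest.Agent.S0076R

/-- the expectation hypothesis in counting form -/
def ExpCond (n : ℕ) {W : Type} (H : SimpleGraph W) (p : ℝ) : Prop :=
  ∀ (V : Type) [Fintype V] (A : SimpleGraph V) [DecidableRel A.Adj], Nonempty (SimpleGraph.Copy A H) →
    (Nat.card (A ≃g A) : ℝ) ≤ 2 * (n.descFactorial (Fintype.card V) : ℝ) * p ^ A.edgeFinset.card

/-- the counting inequality ("WBL") with constants `K`, `A` -/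
def WBL (K A : ℝ) : Prop :=
  ∀ (n : ℕ) (W : Type) [Fintype W] (H : SimpleGraph W) [DecidableRel H.Adj] (p : ℝ),
    2 ≤ n → Fintype.card W ≤ n → 1 ≤ H.edgeFinset.card → 0 < p → p ≤ 1 → ExpCond n H p →
    ∀ T : Finset (EdgeSlot n), T.Nonempty →
      (Nat.card {ψ : {x // x ∈ vertsT T} ↪ W // IsHomT H T ψ} : ℝ)
        ≤ (n.descFactorial (vertsT T).card : ℝ)
          * (K * p * (1 + A * Real.log (H.edgeFinset.card : ℝ) / (T.card : ℝ))) ^ T.card

/-- The unfolding lemmas of the definitions of this file are realised here, once. -/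
theorem unfolding_lemmas_realised_reduce : True := by
  have := @ExpCond.eq_1
  have := @WBL.eq_1
  trivial

/-- the number of copies does not depend on the isomorphism type of the pattern -/
lemma copyCount_congr_iso {X V₁ V₂ : Type*} [Fintype X] (G : SimpleGraph X)
    {A : SimpleGraph V₁} {B : SimpleGraph V₂} (e : A ≃g B) : G.copyCount A = G.copyCount B := by
  unfold SimpleGraph.copyCount
  congr 1
  ext G'
  simp only [mem_filter, mem_univ, true_and]
  exact ⟨fun ⟨i⟩ => ⟨i.comp e.symm⟩, fun ⟨i⟩ => ⟨i.comp e⟩⟩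

section Reduce
variable {n : ℕ} {W : Type} (H : SimpleGraph W)

/-- the hypothesis `hE` of S0076 gives `ExpCond` -/
theorem expCond_of_expect (p : ℝ) (hp0 : 0 ≤ p) (hp1 : p ≤ 1)
    (hE : ∀ F : H.Subgraph, (1 : ℝ) / 2 ≤ gnpExpect n p (fun G => (G.copyCount F.coe : ℝ))) :
    ExpCond n H p := by
  intro V _ A _ hcopy
  obtain ⟨f⟩ := hcopy
  have h := aut_mul_expect_le (n := n) A p hp0 hp1
  have hfun : (fun G : SimpleGraph (Fin n) => (G.copyCount A : ℝ))
      = fun G : SimpleGraph (Fin n) => (G.copyCount f.toSubgraph.coe : ℝ) :=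
    funext fun G => by rw [copyCount_congr_iso G f.isoToSubgraph]
  rw [hfun] at h
  have haut : (0 : ℝ) ≤ (Nat.card (A ≃g A) : ℝ) := Nat.cast_nonneg _
  have h2 := mul_le_mul_of_nonneg_left (hE f.toSubgraph) haut
  linarith

end Reduce

/-- **S0076 from the counting inequality.** -/
theorem result_of_WBL (K A : ℝ) (hK : 0 < K) (hA : 0 ≤ A)
    (hKA : K * (16 + 64 * A) ≤ 2048 * Real.exp 50) (hwbl : WBL K A)
    (n : ℕ) (hn : 2 ≤ n) (W : Type) [Fintype W] (H : SimpleGraph W)
    [DecidableRel H.Adj] (hW : Fintype.card W ≤ n) (hH : 1 ≤ H.edgeFinset.card)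
    (p : ℝ) (hp0 : 0 ≤ p) (hp1 : p ≤ 1)
    (hE : ∀ F : H.Subgraph, (1 : ℝ) / 2 ≤
      gnpExpect n p (fun G => (G.copyCount F.coe : ℝ))) :
    (1 : ℝ) / 2 ≤ gnpProb n
      (min 1 (2048 * Real.exp 50 * p * (1 + Real.logb 2 (H.edgeFinset.card : ℝ))))
      {G | H.IsContained G} := by
  have hexp : ExpCond n H p := expCond_of_expect H p hp0 hp1 hE
  -- `p` is positive: `H` itself has an automorphism and at least one edge
  have hppos : 0 < p := by
    rcases hp0.lt_or_eq with h | h
    · exact h
    · exfalso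
      have h1 := hexp W H ⟨SimpleGraph.Copy.id H⟩
      rw [← h, zero_pow (by omega), mul_zero] at h1
      have : Finite (H ≃g H) :=
        Finite.of_injective (fun f : H ≃g H => (f : W → W)) DFunLike.coe_injective
      have h2 : 0 < Nat.card (H ≃g H) := Nat.card_pos_iff.2 ⟨⟨SimpleGraph.Iso.refl⟩, this⟩
      have h3 : (0 : ℝ) < (Nat.card (H ≃g H) : ℝ) := by exact_mod_cast h2
      linarith
  have hh1 : (1 : ℝ) ≤ (H.edgeFinset.card : ℝ) := by exact_mod_cast hH
  have hlog : 0 ≤ Real.log (H.edgeFinset.card : ℝ) := Real.log_nonneg hh1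
  have hb : 0 ≤ A * Real.log (H.edgeFinset.card : ℝ) := mul_nonneg hA hlog
  have ha : 0 < K * p := mul_pos hK hppos
  refine gnpProb_isContained_of_spread H hW hH (K * p) (A * Real.log (H.edgeFinset.card : ℝ))
    ha hb ?_ _ (min_le_min le_rfl ?_) (min_le_left _ _)
  · -- the spread bound
    intro T hT
    have h1 := hwbl n W H p hn hW hH hppos hp1 hexp T hT
    have h2 := card_cover_mul H T
    have hv : 0 < n.descFactorial (vertsT T).card := by
      rw [Nat.pos_iff_ne_zero, Ne, Nat.descFactorial_eq_zero_iff_lt, not_lt]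
      have := Finset.card_le_univ (vertsT T)
      rwa [Fintype.card_fin] at this
    have hv' : (0 : ℝ) < (n.descFactorial (vertsT T).card : ℝ) := by exact_mod_cast hv
    have h2' : ((univ.filter fun φ : W ↪ Fin n => T ⊆ edgeImage H φ).card : ℝ)
          * (n.descFactorial (vertsT T).card : ℝ)
        = (Nat.card {ψ : {x // x ∈ vertsT T} ↪ W // IsHomT H T ψ} : ℝ)
          * (n.descFactorial (Fintype.card W) : ℝ) := by exact_mod_cast h2
    have hw : (Fintype.card (W ↪ Fin n) : ℝ) = (n.descFactorial (Fintype.card W) : ℝ) := by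
      rw [Fintype.card_embedding_eq, Fintype.card_fin]
    rw [hw]
    have hw0 : (0 : ℝ) ≤ (n.descFactorial (Fintype.card W) : ℝ) := Nat.cast_nonneg _
    have h3 := mul_le_mul_of_nonneg_right h1 hw0
    rw [← h2'] at h3
    -- cancel `(n)_{v(T)}`
    have h4 : ((univ.filter fun φ : W ↪ Fin n => T ⊆ edgeImage H φ).card : ℝ)
          * (n.descFactorial (vertsT T).card : ℝ)
        ≤ ((K * p * (1 + A * Real.log (H.edgeFinset.card : ℝ) / (T.card : ℝ))) ^ T.card
            * (n.descFactorial (Fintype.card W) : ℝ)) * (n.descFactorial (vertsT T).card : ℝ) := by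
      calc _ ≤ _ := h3
        _ = _ := by ring
    exact le_of_mul_le_mul_right h4 hv'
  · -- the density
    have hL : 0 ≤ Real.logb 2 (H.edgeFinset.card : ℝ) := Real.logb_nonneg (by norm_num) hh1
    have hlog2 : Real.log 2 ≤ 1 := by
      have := Real.log_two_lt_d9
      linarith
    have hlog2pos : 0 < Real.log 2 := Real.log_pos (by norm_num)
    have hrel : Real.log (H.edgeFinset.card : ℝ)
        = Real.logb 2 (H.edgeFinset.card : ℝ) * Real.log 2 := by
      unfold Real.logb
      field_simp
    have hle : Real.log (H.edgeFinset.card : ℝ) ≤ Real.logb 2 (H.edgeFinset.card : ℝ) := by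
      rw [hrel]
      nlinarith
    have hAL : A * Real.log (H.edgeFinset.card : ℝ)
        ≤ A * (1 + Real.logb 2 (H.edgeFinset.card : ℝ)) :=
      mul_le_mul_of_nonneg_left (by linarith) hA
    have h5 : 16 * (K * p) * (1 + Real.logb 2 (H.edgeFinset.card : ℝ))
          + 64 * (K * p) * (A * Real.log (H.edgeFinset.card : ℝ))
        ≤ (K * (16 + 64 * A)) * p * (1 + Real.logb 2 (H.edgeFinset.card : ℝ)) := by
      have := mul_le_mul_of_nonneg_left hAL (by positivity : (0 : ℝ) ≤ 64 * (K * p))
      nlinarith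
    have h6 : (K * (16 + 64 * A)) * p * (1 + Real.logb 2 (H.edgeFinset.card : ℝ))
        ≤ (2048 * Real.exp 50) * p * (1 + Real.logb 2 (H.edgeFinset.card : ℝ)) :=
      mul_le_mul_of_nonneg_right (mul_le_mul_of_nonneg_right hKA hp0) (by linarith)
    linarith

end Crest.Agent.S0076R
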