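import Mathlib
import Crest.Prelude.Def_FinProb

/-!
Row 55 / S0076 (helper90): the Park–Pham fragment iteration with a **size-dependent spread**.

`ι` is a finite set of coins, `𝓗` a finite family of subsets of `ι` carrying a probability
weight `μ`.  Suppose the mass of the members of `𝓗` containing a nonempty set `T` is at most
`κ |T| ^ |T|`.  For a schedule of rounds `(r₁, L₁), …, (r_R, L_R)` (densities `0 < r_i ≤ 1`,
thresholds ending in `0`, `L₀ ≥ |S|` for all `S ∈ 𝓗`) the random subset of density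
`q ≥ 1 - ∏ (1 - r_i)` contains a member of `𝓗` with probability at least
`1 - ∑_i ∑_{L_i < t ≤ L_{i-1}} C(L_{i-1}, t) (κ t / r_i) ^ t`   (`spread_containment`).
-/

set_option autoImplicit false
set_option linter.unusedSectionVars false
open Finset

namespace Crest.Agent.S0076R

section Basic
variable {ι : Type*} [Fintype ι] [DecidableEq ι]

/-- weight of the subset `W` when every element is kept independently with probability `r` -/
noncomputable def wt (r : ℝ) (W : Finset ι) : ℝ := ∏ i, if i ∈ W then r else 1 - r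

lemma wt_nonneg {r : ℝ} (h0 : 0 ≤ r) (h1 : r ≤ 1) (W : Finset ι) : 0 ≤ wt r W :=
  prod_nonneg fun i _ => by split_ifs <;> linarith

lemma sum_wt (r : ℝ) : ∑ W : Finset ι, wt r W = 1 := by
  have h := prod_add (fun _ : ι => r) (fun _ : ι => 1 - r) univ
  simp only [add_sub_cancel, prod_const_one, powerset_univ] at h
  rw [h]
  refine sum_congr rfl fun W _ => ?_
  unfold wt
  rw [prod_ite]
  congr 1
  · refine prod_congr ?_ fun _ _ => rfl
    ext i; simp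
  · refine prod_congr ?_ fun _ _ => rfl
    ext i; simp

/-- subsets as indicator functions -/
def ofFn (ω : ι → Bool) : Finset ι := univ.filter fun i => ω i = true

/-- the equivalence between subsets and indicator functions -/
def fnEquiv : (ι → Bool) ≃ Finset ι where
  toFun := ofFn
  invFun W := fun i => decide (i ∈ W)
  left_inv ω := by funext i; simp [ofFn]
  right_inv W := by ext i; simp [ofFn]

lemma sum_ofFn (h : Finset ι → ℝ) : ∑ ω : ι → Bool, h (ofFn ω) = ∑ W : Finset ι, h W :=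
  Equiv.sum_comp fnEquiv h

lemma wt_ofFn (r : ℝ) (ω : ι → Bool) : wt r (ofFn ω) = ∏ i, if ω i then r else 1 - r := by
  unfold wt ofFn
  refine prod_congr rfl fun i _ => ?_
  simp

lemma ofFn_union (ω ω' : ι → Bool) : ofFn ω ∪ ofFn ω' = ofFn fun i => ω i || ω' i := by
  ext i; simp [ofFn]

lemma sum_or_eq (r r' q : ℝ) (hq : 1 - q = (1 - r) * (1 - r')) (b : Bool) :
    ∑ c ∈ univ.filter (fun c : Bool × Bool => (c.1 || c.2) = b),
        (if c.1 then r else 1 - r) * (if c.2 then r' else 1 - r')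
      = if b then q else 1 - q := by
  rw [sum_filter, Fintype.sum_prod_type]
  cases b <;> simp <;> linarith

/-- the union of two independent random subsets is a random subset -/
lemma sum_wt_union (r r' q : ℝ) (hq : 1 - q = (1 - r) * (1 - r')) (F : Finset ι → ℝ) :
    ∑ W : Finset ι, ∑ W' : Finset ι, wt r W * wt r' W' * F (W ∪ W')
      = ∑ Z : Finset ι, wt q Z * F Z := by
  set g : Bool × Bool → ℝ := fun c => (if c.1 then r else 1 - r) * (if c.2 then r' else 1 - r')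
    with hg
  have e1 : ∑ W : Finset ι, ∑ W' : Finset ι, wt r W * wt r' W' * F (W ∪ W')
      = ∑ ω : ι → Bool, ∑ ω' : ι → Bool, wt r (ofFn ω) * wt r' (ofFn ω') * F (ofFn ω ∪ ofFn ω') := by
    rw [← sum_ofFn]
    refine sum_congr rfl fun ω _ => ?_
    rw [← sum_ofFn]
  have e2 : ∑ ω : ι → Bool, ∑ ω' : ι → Bool,
        wt r (ofFn ω) * wt r' (ofFn ω') * F (ofFn ω ∪ ofFn ω')
      = ∑ y : ι → Bool × Bool, (∏ i, g (y i)) * F (ofFn fun i => (y i).1 || (y i).2) := by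
    rw [← Fintype.sum_prod_type']
    rw [← Equiv.sum_comp (Equiv.arrowProdEquivProdArrow ι (fun _ => Bool) (fun _ => Bool))]
    refine sum_congr rfl fun y _ => ?_
    simp only [Equiv.arrowProdEquivProdArrow_apply]
    rw [wt_ofFn, wt_ofFn, ← prod_mul_distrib, ofFn_union]
  have e3 : ∀ ζ : ι → Bool,
      ∑ y ∈ univ.filter (fun y : ι → Bool × Bool => (fun i => (y i).1 || (y i).2) = ζ),
        ∏ i, g (y i) = wt q (ofFn ζ) := by
    intro ζ
    have hfib : univ.filter (fun y : ι → Bool × Bool => (fun i => (y i).1 || (y i).2) = ζ)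
        = Fintype.piFinset (fun i => univ.filter (fun c : Bool × Bool => (c.1 || c.2) = ζ i)) := by
      ext y
      simp [Fintype.mem_piFinset, funext_iff]
    rw [hfib, ← prod_univ_sum, wt_ofFn]
    refine prod_congr rfl fun i _ => ?_
    exact sum_or_eq r r' q hq (ζ i)
  rw [e1, e2, ← sum_ofFn (fun Z => wt q Z * F Z)]
  rw [← sum_fiberwise (s := univ) (g := fun y : ι → Bool × Bool => fun i => (y i).1 || (y i).2)]
  refine sum_congr rfl fun ζ _ => ?_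
  rw [← e3 ζ, sum_mul]
  refine sum_congr rfl fun y hy => ?_
  rw [(mem_filter.1 hy).2]

end Basic

section Fail
variable {ι : Type*} [Fintype ι] [DecidableEq ι]

/-- failure probability: no member of `𝓐` lies inside the random subset of density `q` -/
noncomputable def fail (q : ℝ) (𝓐 : Finset (Finset ι)) : ℝ :=
  ∑ Z : Finset ι, wt q Z * (if ∃ A ∈ 𝓐, A ⊆ Z then 0 else 1)

/-- the members of `𝓐` with the elements of `W` removed -/
def restrict (𝓐 : Finset (Finset ι)) (W : Finset ι) : Finset (Finset ι) := 𝓐.image (· \ W)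

lemma sdiff_sub_iff (A W W' : Finset ι) : A \ W ⊆ W' ↔ A ⊆ W ∪ W' := by
  constructor
  · intro h x hx
    by_cases hxW : x ∈ W
    · exact mem_union_left _ hxW
    · exact mem_union_right _ (h (mem_sdiff.2 ⟨hx, hxW⟩))
  · intro h x hx
    rw [mem_sdiff] at hx
    rcases mem_union.1 (h hx.1) with h1 | h1
    · exact absurd h1 hx.2
    · exact h1

lemma exists_restrict_iff (𝓐 : Finset (Finset ι)) (W W' : Finset ι) :
    (∃ B ∈ restrict 𝓐 W, B ⊆ W') ↔ ∃ A ∈ 𝓐, A ⊆ W ∪ W' := by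
  unfold restrict
  constructor
  · rintro ⟨B, hB, hBW⟩
    obtain ⟨A, hA, rfl⟩ := mem_image.1 hB
    exact ⟨A, hA, (sdiff_sub_iff A W W').1 hBW⟩
  · rintro ⟨A, hA, hAW⟩
    exact ⟨A \ W, mem_image_of_mem _ hA, (sdiff_sub_iff A W W').2 hAW⟩

lemma fail_nonneg {q : ℝ} (h0 : 0 ≤ q) (h1 : q ≤ 1) (𝓐 : Finset (Finset ι)) : 0 ≤ fail q 𝓐 :=
  sum_nonneg fun Z _ => mul_nonneg (wt_nonneg h0 h1 Z) (by split_ifs <;> norm_num)

lemma fail_le_one {q : ℝ} (h0 : 0 ≤ q) (h1 : q ≤ 1) (𝓐 : Finset (Finset ι)) : fail q 𝓐 ≤ 1 := by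
  rw [← sum_wt (ι := ι) q]
  refine sum_le_sum fun Z _ => ?_
  have := wt_nonneg h0 h1 Z
  split_ifs <;> nlinarith

lemma fail_anti {q : ℝ} (h0 : 0 ≤ q) (h1 : q ≤ 1) {𝓐 𝓑 : Finset (Finset ι)} (h : 𝓑 ⊆ 𝓐) :
    fail q 𝓐 ≤ fail q 𝓑 := by
  refine sum_le_sum fun Z _ => ?_
  have hw := wt_nonneg h0 h1 Z
  refine mul_le_mul_of_nonneg_left ?_ hw
  by_cases hB : ∃ A ∈ 𝓑, A ⊆ Z
  · have hA : ∃ A ∈ 𝓐, A ⊆ Z := by
      obtain ⟨A, hA, hAZ⟩ := hB
      exact ⟨A, h hA, hAZ⟩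
    rw [if_pos hB, if_pos hA]
  · rw [if_neg hB]
    split_ifs <;> norm_num

/-- one round of sprinkling -/
lemma fail_step (r q' q : ℝ) (hq : 1 - q = (1 - r) * (1 - q')) (𝓐 : Finset (Finset ι)) :
    fail q 𝓐 = ∑ W : Finset ι, wt r W * fail q' (restrict 𝓐 W) := by
  unfold fail
  rw [← sum_wt_union r q' q hq]
  refine sum_congr rfl fun W _ => ?_
  rw [mul_sum]
  refine sum_congr rfl fun W' _ => ?_
  have h := exists_restrict_iff 𝓐 W W'
  by_cases hc : ∃ A ∈ 𝓐, A ⊆ W ∪ W'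
  · rw [if_pos hc, if_pos (h.2 hc)]; ring
  · rw [if_neg hc, if_neg (fun hh => hc (h.1 hh))]; ring

/-- at density `0` the random subset is empty -/
lemma fail_zero (𝓐 : Finset (Finset ι)) (h : ∅ ∈ 𝓐) : fail (0 : ℝ) 𝓐 = 0 := by
  unfold fail
  refine sum_eq_zero fun Z _ => ?_
  rw [if_pos ⟨∅, h, empty_subset Z⟩, mul_zero]

end Fail

section Frag
variable {ι : Type*} [Fintype ι] [DecidableEq ι]

/-- the candidate fragments of `A`: the sets `S' \ W` for `S' ∈ 𝓐` with `S' ⊆ W ∪ A` -/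
def cands (𝓐 : Finset (Finset ι)) (W A : Finset ι) : Finset (Finset ι) :=
  (𝓐.filter fun S' => S' ⊆ W ∪ A).image (· \ W)

lemma cands_nonempty {𝓐 : Finset (Finset ι)} (W : Finset ι) {A : Finset ι} (hA : A ∈ 𝓐) :
    (cands 𝓐 W A).Nonempty :=
  ⟨A \ W, mem_image_of_mem _ (mem_filter.2 ⟨hA, subset_union_right⟩)⟩

open Classical in
/-- a minimum fragment of `A` with respect to `W` -/
noncomputable def frag (𝓐 : Finset (Finset ι)) (W A : Finset ι) : Finset ι :=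
  if h : (cands 𝓐 W A).Nonempty then
    Classical.choose (exists_min_image (cands 𝓐 W A) card h)
  else ∅

lemma frag_spec {𝓐 : Finset (Finset ι)} (W : Finset ι) {A : Finset ι} (hA : A ∈ 𝓐) :
    frag 𝓐 W A ∈ cands 𝓐 W A ∧ ∀ T ∈ cands 𝓐 W A, (frag 𝓐 W A).card ≤ T.card := by
  have h := cands_nonempty W hA
  unfold frag
  rw [dif_pos h]
  exact Classical.choose_spec (exists_min_image (cands 𝓐 W A) card h)

/-- the fragment is `S' \ W` for a member `S'` of `𝓐` inside `W ∪ A` -/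
lemma frag_eq {𝓐 : Finset (Finset ι)} (W : Finset ι) {A : Finset ι} (hA : A ∈ 𝓐) :
    ∃ S' ∈ 𝓐, S' ⊆ W ∪ A ∧ frag 𝓐 W A = S' \ W := by
  obtain ⟨S', hS', he⟩ := mem_image.1 (frag_spec W hA).1
  rw [mem_filter] at hS'
  exact ⟨S', hS'.1, hS'.2, he.symm⟩

lemma frag_min {𝓐 : Finset (Finset ι)} (W : Finset ι) {A : Finset ι} (hA : A ∈ 𝓐)
    {S'' : Finset ι} (hS : S'' ∈ 𝓐) (hsub : S'' ⊆ W ∪ A) :
    (frag 𝓐 W A).card ≤ (S'' \ W).card :=
  (frag_spec W hA).2 _ (mem_image_of_mem _ (mem_filter.2 ⟨hS, hsub⟩))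

lemma frag_subset {𝓐 : Finset (Finset ι)} (W : Finset ι) {A : Finset ι} (hA : A ∈ 𝓐) :
    frag 𝓐 W A ⊆ A := by
  obtain ⟨S', _, hsub, he⟩ := frag_eq W hA
  rw [he]
  exact (sdiff_sub_iff S' W A).2 hsub

lemma frag_disjoint {𝓐 : Finset (Finset ι)} (W : Finset ι) {A : Finset ι} (hA : A ∈ 𝓐) :
    Disjoint W (frag 𝓐 W A) := by
  obtain ⟨S', _, _, he⟩ := frag_eq W hA
  rw [he]
  exact disjoint_sdiff

lemma frag_mem_restrict {𝓐 : Finset (Finset ι)} (W : Finset ι) {A : Finset ι} (hA : A ∈ 𝓐) :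
    frag 𝓐 W A ∈ restrict 𝓐 W := by
  obtain ⟨S', hS', _, he⟩ := frag_eq W hA
  rw [he]
  exact mem_image_of_mem _ hS'

/-- the small fragments -/
noncomputable def good (𝓐 : Finset (Finset ι)) (W : Finset ι) (L : ℕ) : Finset (Finset ι) :=
  (𝓐.image (frag 𝓐 W)).filter fun T => T.card ≤ L

/-- the large fragments -/
noncomputable def bad (𝓐 : Finset (Finset ι)) (W : Finset ι) (L : ℕ) : Finset (Finset ι) :=
  (𝓐.image (frag 𝓐 W)).filter fun T => L < T.card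

lemma good_subset_restrict (𝓐 : Finset (Finset ι)) (W : Finset ι) (L : ℕ) :
    good 𝓐 W L ⊆ restrict 𝓐 W := by
  intro T hT
  obtain ⟨A, hA, rfl⟩ := mem_image.1 (mem_filter.1 hT).1
  exact frag_mem_restrict W hA

lemma good_card_le (𝓐 : Finset (Finset ι)) (W : Finset ι) (L : ℕ) :
    ∀ T ∈ good 𝓐 W L, T.card ≤ L := fun _ hT => (mem_filter.1 hT).2

variable (𝓗 : Finset (Finset ι)) (μ : Finset ι → ℝ)

/-- the mass of the members of `𝓗` containing a member of `𝓐` -/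
noncomputable def cov (𝓐 : Finset (Finset ι)) : ℝ :=
  ∑ S ∈ 𝓗, if ∃ A ∈ 𝓐, A ⊆ S then μ S else 0

/-- the mass of the members of `𝓗` containing `T` -/
noncomputable def lam (T : Finset ι) : ℝ := ∑ S ∈ 𝓗, if T ⊆ S then μ S else 0

variable {𝓗 μ}

lemma cov_nonneg (hμ : ∀ S ∈ 𝓗, 0 ≤ μ S) (𝓐 : Finset (Finset ι)) : 0 ≤ cov 𝓗 μ 𝓐 :=
  sum_nonneg fun S hS => by split_ifs; exacts [hμ S hS, le_refl _]

lemma lam_nonneg (hμ : ∀ S ∈ 𝓗, 0 ≤ μ S) (T : Finset ι) : 0 ≤ lam 𝓗 μ T :=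
  sum_nonneg fun S hS => by split_ifs; exacts [hμ S hS, le_refl _]

lemma cov_self : cov 𝓗 μ 𝓗 = ∑ S ∈ 𝓗, μ S := by
  unfold cov
  refine sum_congr rfl fun S hS => ?_
  rw [if_pos ⟨S, hS, Subset.refl S⟩]

lemma cov_empty : cov 𝓗 μ (∅ : Finset (Finset ι)) = 0 := by
  unfold cov
  refine sum_eq_zero fun S _ => ?_
  rw [if_neg]
  rintro ⟨A, hA, _⟩
  exact absurd hA (notMem_empty A)

/-- every member of `𝓗` above `𝓐` is above a small or a large fragment -/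
lemma cov_le (hμ : ∀ S ∈ 𝓗, 0 ≤ μ S) (𝓐 : Finset (Finset ι)) (W : Finset ι) (L : ℕ) :
    cov 𝓗 μ 𝓐 ≤ cov 𝓗 μ (good 𝓐 W L) + ∑ T ∈ bad 𝓐 W L, lam 𝓗 μ T := by
  unfold cov lam
  rw [sum_comm, ← sum_add_distrib]
  refine sum_le_sum fun S hS => ?_
  have hμS := hμ S hS
  have hsum : 0 ≤ ∑ T ∈ bad 𝓐 W L, (if T ⊆ S then μ S else 0) :=
    sum_nonneg fun T _ => by split_ifs; exacts [hμS, le_refl _]
  have hfirst : 0 ≤ (if ∃ A ∈ good 𝓐 W L, A ⊆ S then μ S else 0) := by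
    split_ifs; exacts [hμS, le_refl _]
  by_cases hA : ∃ A ∈ 𝓐, A ⊆ S
  · rw [if_pos hA]
    obtain ⟨A, hA𝓐, hAS⟩ := hA
    have hfS : frag 𝓐 W A ⊆ S := (frag_subset W hA𝓐).trans hAS
    by_cases hc : (frag 𝓐 W A).card ≤ L
    · have hg : ∃ B ∈ good 𝓐 W L, B ⊆ S :=
        ⟨frag 𝓐 W A, mem_filter.2 ⟨mem_image_of_mem _ hA𝓐, hc⟩, hfS⟩
      rw [if_pos hg]; linarith
    · have hb : frag 𝓐 W A ∈ bad 𝓐 W L :=
        mem_filter.2 ⟨mem_image_of_mem _ hA𝓐, not_le.1 hc⟩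
      have h1 : (if frag 𝓐 W A ⊆ S then μ S else 0)
          ≤ ∑ T ∈ bad 𝓐 W L, (if T ⊆ S then μ S else 0) :=
        single_le_sum (f := fun T => if T ⊆ S then μ S else 0)
          (fun T _ => by split_ifs; exacts [hμS, le_refl _]) hb
      rw [if_pos hfS] at h1
      linarith
  · rw [if_neg hA]; linarith

end Frag

section Round
variable {ι : Type*} [Fintype ι] [DecidableEq ι]

/-- adding a set `T` disjoint from `W` -/
lemma wt_mul_pow_le {r : ℝ} (h0 : 0 ≤ r) (h1 : r ≤ 1) {W T : Finset ι} (hd : Disjoint W T) :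
    wt r W * r ^ T.card ≤ wt r (W ∪ T) := by
  have e : r ^ T.card = ∏ i : ι, if i ∈ T then r else 1 := by
    rw [prod_ite, prod_const_one, mul_one, prod_const]
    congr 2
    ext i; simp
  unfold wt
  rw [e, ← prod_mul_distrib]
  refine prod_le_prod (fun i _ => ?_) (fun i _ => ?_)
  · exact mul_nonneg (by split_ifs <;> linarith) (by split_ifs <;> linarith)
  · by_cases hT : i ∈ T
    · have hW : i ∉ W := fun hW => (disjoint_left.1 hd hW) hT
      rw [if_pos hT, if_neg hW, if_pos (mem_union_right _ hT)]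
      nlinarith
    · by_cases hW : i ∈ W
      · rw [if_neg hT, if_pos hW, if_pos (mem_union_left _ hW), mul_one]
      · rw [if_neg hT, if_neg hW, if_neg (by simp [hW, hT]), mul_one]

open Classical in
/-- a member of `𝓐` inside `Z`, if there is one -/
noncomputable def pick (𝓐 : Finset (Finset ι)) (Z : Finset ι) : Finset ι :=
  if h : ∃ S ∈ 𝓐, S ⊆ Z then Classical.choose h else ∅

lemma pick_spec {𝓐 : Finset (Finset ι)} {Z : Finset ι} (h : ∃ S ∈ 𝓐, S ⊆ Z) :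
    pick 𝓐 Z ∈ 𝓐 ∧ pick 𝓐 Z ⊆ Z := by
  unfold pick
  rw [dif_pos h]
  exact Classical.choose_spec h

lemma pick_card_le {𝓐 : Finset (Finset ι)} {L₀ : ℕ} (h𝓐 : ∀ A ∈ 𝓐, A.card ≤ L₀)
    (Z : Finset ι) : (pick 𝓐 Z).card ≤ L₀ := by
  unfold pick
  split_ifs with h
  · exact h𝓐 _ (Classical.choose_spec h).1
  · simp

/-- **Minimality**: a large fragment `T` (for `W`) lies inside the canonical member of `𝓐`
contained in `W ∪ T`. -/
lemma bad_subset_pick {𝓐 : Finset (Finset ι)} {W T : Finset ι} {L : ℕ} (hT : T ∈ bad 𝓐 W L) :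
    T ⊆ pick 𝓐 (W ∪ T) ∧ Disjoint W T := by
  obtain ⟨A, hA, rfl⟩ := mem_image.1 (mem_filter.1 hT).1
  obtain ⟨S', hS', _, he⟩ := frag_eq W hA
  have hex : ∃ S ∈ 𝓐, S ⊆ W ∪ frag 𝓐 W A :=
    ⟨S', hS', by rw [he]; exact (sdiff_sub_iff S' W _).1 (Subset.refl _)⟩
  obtain ⟨hp1, hp2⟩ := pick_spec hex
  have hpA : pick 𝓐 (W ∪ frag 𝓐 W A) ⊆ W ∪ A :=
    hp2.trans (union_subset_union_right (frag_subset W hA))
  have hcard := frag_min W hA hp1 hpA
  have hsub2 : pick 𝓐 (W ∪ frag 𝓐 W A) \ W ⊆ frag 𝓐 W A := (sdiff_sub_iff _ _ _).2 hp2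
  have heq : pick 𝓐 (W ∪ frag 𝓐 W A) \ W = frag 𝓐 W A := eq_of_subset_of_card_le hsub2 hcard
  refine ⟨?_, frag_disjoint W hA⟩
  intro x hx
  rw [← heq] at hx
  exact (mem_sdiff.1 hx).1

variable (𝓗 : Finset (Finset ι)) (μ : Finset ι → ℝ)

/-- **One round**: the expected mass of the large fragments. -/
lemma round_cost (κ : ℕ → ℝ) (hκ : ∀ t, 0 ≤ κ t)
    (hlam : ∀ T : Finset ι, T.Nonempty → lam 𝓗 μ T ≤ κ T.card ^ T.card)
    (𝓐 : Finset (Finset ι)) (L₀ L : ℕ) (h𝓐 : ∀ A ∈ 𝓐, A.card ≤ L₀)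
    {r : ℝ} (hr0 : 0 < r) (hr1 : r ≤ 1) :
    ∑ W : Finset ι, wt r W * ∑ T ∈ bad 𝓐 W L, lam 𝓗 μ T
      ≤ ∑ t ∈ Ioc L L₀, (L₀.choose t : ℝ) * (κ t / r) ^ t := by
  set G : Finset ι → ℝ := fun T => (κ T.card / r) ^ T.card with hG
  have hG0 : ∀ T, 0 ≤ G T := fun T => pow_nonneg (div_nonneg (hκ _) hr0.le) _
  -- Step A: pointwise
  have hA : ∀ W : Finset ι, wt r W * ∑ T ∈ bad 𝓐 W L, lam 𝓗 μ T
      ≤ ∑ T ∈ bad 𝓐 W L, wt r (W ∪ T) * G T := by
    intro W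
    rw [mul_sum]
    refine sum_le_sum fun T hT => ?_
    have hcard : L < T.card := (mem_filter.1 hT).2
    have hne : T.Nonempty := card_pos.1 (by omega)
    have hd := (bad_subset_pick hT).2
    have hw := wt_nonneg hr0.le hr1 W
    calc wt r W * lam 𝓗 μ T ≤ wt r W * κ T.card ^ T.card :=
          mul_le_mul_of_nonneg_left (hlam T hne) hw
      _ = (wt r W * r ^ T.card) * G T := by
          simp only [hG]
          rw [div_pow]
          field_simp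
      _ ≤ wt r (W ∪ T) * G T :=
          mul_le_mul_of_nonneg_right (wt_mul_pow_le hr0.le hr1 hd) (hG0 T)
  -- Step B: reindex by `Z = W ∪ T`
  set P : Finset ι → Finset (Finset ι) :=
    fun Z => (pick 𝓐 Z).powerset.filter (fun T => L < T.card) with hP
  have hB : ∑ W : Finset ι, ∑ T ∈ bad 𝓐 W L, wt r (W ∪ T) * G T
      ≤ ∑ Z : Finset ι, ∑ T ∈ P Z, wt r Z * G T := by
    rw [sum_sigma', sum_sigma']
    let Φ : (Σ _ : Finset ι, Finset ι) → (Σ _ : Finset ι, Finset ι) := fun x => ⟨x.1 ∪ x.2, x.2⟩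
    have hinj : ∀ x ∈ (univ.sigma fun W => bad 𝓐 W L : Finset (Σ _ : Finset ι, Finset ι)),
        ∀ y ∈ (univ.sigma fun W => bad 𝓐 W L : Finset (Σ _ : Finset ι, Finset ι)),
        Φ x = Φ y → x = y := by
      rintro ⟨W, T⟩ hx ⟨W', T'⟩ hx' h
      rw [mem_sigma] at hx hx'
      simp only [Φ, Sigma.mk.injEq, heq_eq_eq] at h
      obtain ⟨h1, h2⟩ := h
      subst h2
      have d1 : Disjoint W T := (bad_subset_pick hx.2).2
      have d2 : Disjoint W' T := (bad_subset_pick hx'.2).2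
      have hW : W = W' := by
        rw [← union_sdiff_cancel_right d1, h1, union_sdiff_cancel_right d2]
      subst hW
      rfl
    calc ∑ x ∈ univ.sigma fun W => bad 𝓐 W L, wt r (x.1 ∪ x.2) * G x.2
        = ∑ y ∈ (univ.sigma fun W => bad 𝓐 W L).image Φ, wt r y.1 * G y.2 :=
          (sum_image (f := fun y : (Σ _ : Finset ι, Finset ι) => wt r y.1 * G y.2) hinj).symm
      _ ≤ ∑ y ∈ univ.sigma P, wt r y.1 * G y.2 := by
          refine sum_le_sum_of_subset_of_nonneg ?_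
            (fun y _ _ => mul_nonneg (wt_nonneg hr0.le hr1 _) (hG0 _))
          intro y hy
          obtain ⟨⟨W, T⟩, hx, rfl⟩ := mem_image.1 hy
          rw [mem_sigma] at hx ⊢
          refine ⟨mem_univ _, ?_⟩
          show T ∈ P (W ∪ T)
          simp only [hP, mem_filter, mem_powerset]
          exact ⟨(bad_subset_pick hx.2).1, (mem_filter.1 hx.2).2⟩
  -- Step C: count the subsets of the canonical member
  have hC : ∀ Z : Finset ι, ∑ T ∈ P Z, wt r Z * G T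
      ≤ wt r Z * ∑ t ∈ Ioc L L₀, (L₀.choose t : ℝ) * (κ t / r) ^ t := by
    intro Z
    rw [← mul_sum]
    refine mul_le_mul_of_nonneg_left ?_ (wt_nonneg hr0.le hr1 Z)
    have hmaps : ∀ T ∈ P Z, T.card ∈ Ioc L L₀ := by
      intro T hT
      simp only [hP, mem_filter, mem_powerset] at hT
      rw [mem_Ioc]
      exact ⟨hT.2, (card_le_card hT.1).trans (pick_card_le h𝓐 Z)⟩
    rw [← sum_fiberwise_of_maps_to hmaps]
    refine sum_le_sum fun t _ => ?_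
    have e : ∀ T ∈ (P Z).filter (fun T => T.card = t), G T = (κ t / r) ^ t := by
      intro T hT
      simp only [hG]
      rw [(mem_filter.1 hT).2]
    rw [sum_congr rfl e, sum_const, nsmul_eq_mul]
    refine mul_le_mul_of_nonneg_right ?_ (pow_nonneg (div_nonneg (hκ _) hr0.le) _)
    have hsub : (P Z).filter (fun T => T.card = t) ⊆ powersetCard t (pick 𝓐 Z) := by
      intro T hT
      rw [mem_filter] at hT
      have hT1 := hT.1
      simp only [hP, mem_filter, mem_powerset] at hT1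
      exact mem_powersetCard.2 ⟨hT1.1, hT.2⟩
    have hle := card_le_card hsub
    rw [card_powersetCard] at hle
    exact_mod_cast hle.trans (Nat.choose_le_choose t (pick_card_le h𝓐 Z))
  calc ∑ W : Finset ι, wt r W * ∑ T ∈ bad 𝓐 W L, lam 𝓗 μ T
      ≤ ∑ W : Finset ι, ∑ T ∈ bad 𝓐 W L, wt r (W ∪ T) * G T := sum_le_sum fun W _ => hA W
    _ ≤ ∑ Z : Finset ι, ∑ T ∈ P Z, wt r Z * G T := hB
    _ ≤ ∑ Z : Finset ι, wt r Z * ∑ t ∈ Ioc L L₀, (L₀.choose t : ℝ) * (κ t / r) ^ t :=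
        sum_le_sum fun Z _ => hC Z
    _ = ∑ t ∈ Ioc L L₀, (L₀.choose t : ℝ) * (κ t / r) ^ t := by
        rw [← sum_mul, sum_wt, one_mul]

end Round

section Main
variable {ι : Type*} [Fintype ι] [DecidableEq ι]

/-- total density of a schedule of rounds `(r, L)` -/
noncomputable def qOf : List (ℝ × ℕ) → ℝ
  | [] => 0
  | ρ :: ρs => 1 - (1 - ρ.1) * (1 - qOf ρs)

/-- total cost of a schedule started at the size bound `L₀` -/
noncomputable def cost (κ : ℕ → ℝ) : ℕ → List (ℝ × ℕ) → ℝ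
  | _, [] => 0
  | L₀, ρ :: ρs => ∑ t ∈ Ioc ρ.2 L₀, (L₀.choose t : ℝ) * (κ t / ρ.1) ^ t + cost κ ρ.2 ρs

/-- admissible schedules: densities in `(0,1]`, the last threshold is `0` -/
def Sched : ℕ → List (ℝ × ℕ) → Prop
  | L₀, [] => L₀ = 0
  | _, ρ :: ρs => 0 < ρ.1 ∧ ρ.1 ≤ 1 ∧ Sched ρ.2 ρs

lemma qOf_mem : ∀ (L₀ : ℕ) (ρs : List (ℝ × ℕ)), Sched L₀ ρs → 0 ≤ qOf ρs ∧ qOf ρs ≤ 1
  | _, [], _ => by simp [qOf]
  | _, ρ :: ρs, h => by
      obtain ⟨h0, h1, hs⟩ := h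
      obtain ⟨a, b⟩ := qOf_mem ρ.2 ρs hs
      have e1 : 0 ≤ (1 - ρ.1) * (1 - qOf ρs) := mul_nonneg (by linarith) (by linarith)
      have e2 : (1 - ρ.1) * (1 - qOf ρs) ≤ 1 :=
        mul_le_one₀ (by linarith) (by linarith) (by linarith)
      simp only [qOf]
      constructor <;> linarith

lemma fail_restrict_le {q : ℝ} (h0 : 0 ≤ q) (h1 : q ≤ 1) (𝓐 : Finset (Finset ι))
    (W : Finset ι) : fail q (restrict 𝓐 W) ≤ fail q 𝓐 := by
  refine sum_le_sum fun Z _ => ?_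
  refine mul_le_mul_of_nonneg_left ?_ (wt_nonneg h0 h1 Z)
  by_cases hA : ∃ A ∈ 𝓐, A ⊆ Z
  · have hB : ∃ B ∈ restrict 𝓐 W, B ⊆ Z := by
      obtain ⟨A, hA, hAZ⟩ := hA
      exact ⟨A \ W, mem_image_of_mem _ hA, sdiff_subset.trans hAZ⟩
    rw [if_pos hA, if_pos hB]
  · rw [if_neg hA]
    split_ifs <;> norm_num

/-- the failure probability is nonincreasing in the density -/
lemma fail_mono {q₀ q : ℝ} (h0 : 0 ≤ q₀) (h01 : q₀ ≤ q) (h1 : q ≤ 1) (𝓐 : Finset (Finset ι)) :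
    fail q 𝓐 ≤ fail q₀ 𝓐 := by
  have hq₀1 : q₀ ≤ 1 := h01.trans h1
  rcases eq_or_lt_of_le hq₀1 with h | h
  · have : q = q₀ := by linarith
    rw [this]
  · have hpos : 0 < 1 - q₀ := by linarith
    set r := (q - q₀) / (1 - q₀) with hr
    have hr0 : 0 ≤ r := div_nonneg (by linarith) hpos.le
    have hr1 : r ≤ 1 := by rw [hr, div_le_one hpos]; linarith
    have hq : 1 - q = (1 - r) * (1 - q₀) := by
      rw [hr]; field_simp; ring
    rw [fail_step r q₀ q hq 𝓐]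
    calc ∑ W : Finset ι, wt r W * fail q₀ (restrict 𝓐 W)
        ≤ ∑ W : Finset ι, wt r W * fail q₀ 𝓐 :=
          sum_le_sum fun W _ =>
            mul_le_mul_of_nonneg_left (fail_restrict_le h0 hq₀1 𝓐 W) (wt_nonneg hr0 hr1 W)
      _ = fail q₀ 𝓐 := by rw [← sum_mul, sum_wt, one_mul]

variable (𝓗 : Finset (Finset ι)) (μ : Finset ι → ℝ)

/-- **The fragment iteration**: failure probability times covered mass is at most the cost. -/
theorem fail_mul_cov_le (hμ : ∀ S ∈ 𝓗, 0 ≤ μ S) (κ : ℕ → ℝ) (hκ : ∀ t, 0 ≤ κ t)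
    (hlam : ∀ T : Finset ι, T.Nonempty → lam 𝓗 μ T ≤ κ T.card ^ T.card) :
    ∀ (ρs : List (ℝ × ℕ)) (L₀ : ℕ) (𝓐 : Finset (Finset ι)), (∀ A ∈ 𝓐, A.card ≤ L₀) →
      Sched L₀ ρs → fail (qOf ρs) 𝓐 * cov 𝓗 μ 𝓐 ≤ cost κ L₀ ρs := by
  intro ρs
  induction ρs with
  | nil =>
    intro L₀ 𝓐 h𝓐 hs
    simp only [Sched] at hs
    subst hs
    simp only [qOf, cost]
    by_cases he : ∅ ∈ 𝓐
    · rw [fail_zero 𝓐 he, zero_mul]
    · have h𝓐e : 𝓐 = ∅ := by
        rw [eq_empty_iff_forall_notMem]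
        intro A hA
        have : A = ∅ := card_eq_zero.1 (Nat.le_zero.1 (h𝓐 A hA))
        exact he (this ▸ hA)
      rw [h𝓐e, cov_empty, mul_zero]
  | cons ρ ρs ih =>
    intro L₀ 𝓐 h𝓐 hs
    obtain ⟨hr0, hr1, hs'⟩ := hs
    obtain ⟨hq0, hq1⟩ := qOf_mem ρ.2 ρs hs'
    simp only [qOf, cost]
    rw [fail_step ρ.1 (qOf ρs) (1 - (1 - ρ.1) * (1 - qOf ρs)) (by ring) 𝓐, sum_mul]
    have key : ∀ W : Finset ι, wt ρ.1 W * fail (qOf ρs) (restrict 𝓐 W) * cov 𝓗 μ 𝓐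
        ≤ wt ρ.1 W * cost κ ρ.2 ρs + wt ρ.1 W * ∑ T ∈ bad 𝓐 W ρ.2, lam 𝓗 μ T := by
      intro W
      have hw := wt_nonneg hr0.le hr1 W
      have h1 : fail (qOf ρs) (restrict 𝓐 W) ≤ fail (qOf ρs) (good 𝓐 W ρ.2) :=
        fail_anti hq0 hq1 (good_subset_restrict 𝓐 W ρ.2)
      have h2 := cov_le hμ 𝓐 W ρ.2
      have h3 := ih ρ.2 (good 𝓐 W ρ.2) (good_card_le 𝓐 W ρ.2) hs'
      have h4 := fail_nonneg hq0 hq1 (good 𝓐 W ρ.2)
      have h5 := fail_le_one hq0 hq1 (good 𝓐 W ρ.2)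
      have h6 : 0 ≤ ∑ T ∈ bad 𝓐 W ρ.2, lam 𝓗 μ T := sum_nonneg fun T _ => lam_nonneg hμ T
      have h7 := cov_nonneg hμ 𝓐
      have hmain : fail (qOf ρs) (restrict 𝓐 W) * cov 𝓗 μ 𝓐
          ≤ cost κ ρ.2 ρs + ∑ T ∈ bad 𝓐 W ρ.2, lam 𝓗 μ T := by
        calc fail (qOf ρs) (restrict 𝓐 W) * cov 𝓗 μ 𝓐
            ≤ fail (qOf ρs) (good 𝓐 W ρ.2) * cov 𝓗 μ 𝓐 := mul_le_mul_of_nonneg_right h1 h7
          _ ≤ fail (qOf ρs) (good 𝓐 W ρ.2)
                * (cov 𝓗 μ (good 𝓐 W ρ.2) + ∑ T ∈ bad 𝓐 W ρ.2, lam 𝓗 μ T) :=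
              mul_le_mul_of_nonneg_left h2 h4
          _ = fail (qOf ρs) (good 𝓐 W ρ.2) * cov 𝓗 μ (good 𝓐 W ρ.2)
                + fail (qOf ρs) (good 𝓐 W ρ.2) * ∑ T ∈ bad 𝓐 W ρ.2, lam 𝓗 μ T := by ring
          _ ≤ cost κ ρ.2 ρs + 1 * ∑ T ∈ bad 𝓐 W ρ.2, lam 𝓗 μ T :=
              add_le_add h3 (mul_le_mul_of_nonneg_right h5 h6)
          _ = _ := by ring
      calc wt ρ.1 W * fail (qOf ρs) (restrict 𝓐 W) * cov 𝓗 μ 𝓐
          = wt ρ.1 W * (fail (qOf ρs) (restrict 𝓐 W) * cov 𝓗 μ 𝓐) := by ring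
        _ ≤ wt ρ.1 W * (cost κ ρ.2 ρs + ∑ T ∈ bad 𝓐 W ρ.2, lam 𝓗 μ T) :=
            mul_le_mul_of_nonneg_left hmain hw
        _ = _ := by ring
    calc ∑ W : Finset ι, wt ρ.1 W * fail (qOf ρs) (restrict 𝓐 W) * cov 𝓗 μ 𝓐
        ≤ ∑ W : Finset ι, (wt ρ.1 W * cost κ ρ.2 ρs
            + wt ρ.1 W * ∑ T ∈ bad 𝓐 W ρ.2, lam 𝓗 μ T) := sum_le_sum fun W _ => key W
      _ = cost κ ρ.2 ρs + ∑ W : Finset ι, wt ρ.1 W * ∑ T ∈ bad 𝓐 W ρ.2, lam 𝓗 μ T := by
          rw [sum_add_distrib, ← sum_mul, sum_wt, one_mul]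
      _ ≤ cost κ ρ.2 ρs + ∑ t ∈ Ioc ρ.2 L₀, (L₀.choose t : ℝ) * (κ t / ρ.1) ^ t :=
          add_le_add_right (round_cost 𝓗 μ κ hκ hlam 𝓐 L₀ ρ.2 h𝓐 hr0 hr1) _
      _ = _ := by ring

/-- success probability: some member of `𝓐` lies inside the random subset of density `q` -/
noncomputable def succ (q : ℝ) (𝓐 : Finset (Finset ι)) : ℝ :=
  ∑ Z : Finset ι, wt q Z * (if ∃ A ∈ 𝓐, A ⊆ Z then 1 else 0)

lemma succ_eq (q : ℝ) (𝓐 : Finset (Finset ι)) : succ q 𝓐 = 1 - fail q 𝓐 := by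
  have h : succ q 𝓐 + fail q 𝓐 = ∑ Z : Finset ι, wt q Z := by
    unfold succ fail
    rw [← sum_add_distrib]
    refine sum_congr rfl fun Z _ => ?_
    split_ifs <;> ring
  rw [sum_wt] at h
  linarith

lemma bernoulliProb_eq_succ (q : ℝ) (𝓐 : Finset (Finset ι)) :
    Crest.FinProb.bernoulliProb q {ω : ι → Bool | ∃ S ∈ 𝓐, ∀ i ∈ S, ω i = true} = succ q 𝓐 := by
  unfold Crest.FinProb.bernoulliProb succ
  rw [sum_filter, ← sum_ofFn]
  refine sum_congr rfl fun ω _ => ?_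
  rw [wt_ofFn]
  unfold Crest.FinProb.bernoulliWeight
  have hiff : (ω ∈ {ω : ι → Bool | ∃ S ∈ 𝓐, ∀ i ∈ S, ω i = true}) ↔ ∃ A ∈ 𝓐, A ⊆ ofFn ω := by
    show (∃ S ∈ 𝓐, ∀ i ∈ S, ω i = true) ↔ _
    simp only [ofFn, subset_iff, mem_filter, mem_univ, true_and]
  by_cases h : ∃ A ∈ 𝓐, A ⊆ ofFn ω
  · rw [if_pos h, if_pos (hiff.2 h), mul_one]
  · rw [if_neg h, if_neg (fun hh => h (hiff.1 hh)), mul_zero]

/-- **Park–Pham with a size-dependent spread.**  If the mass of the members of `𝓗` containing a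
nonempty set `T` is at most `κ |T| ^ |T|`, then for every admissible schedule the random subset
of density `q ≥ qOf ρs` contains a member of `𝓗` with probability at least `1 - cost κ L₀ ρs`. -/
theorem spread_containment (hμ : ∀ S ∈ 𝓗, 0 ≤ μ S) (hμ1 : ∑ S ∈ 𝓗, μ S = 1)
    (κ : ℕ → ℝ) (hκ : ∀ t, 0 ≤ κ t)
    (hspread : ∀ T : Finset ι, T.Nonempty →
      ∑ S ∈ 𝓗.filter (fun S => T ⊆ S), μ S ≤ κ T.card ^ T.card)
    (L₀ : ℕ) (hL₀ : ∀ S ∈ 𝓗, S.card ≤ L₀) (ρs : List (ℝ × ℕ)) (hs : Sched L₀ ρs)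
    (q : ℝ) (hq : qOf ρs ≤ q) (hq1 : q ≤ 1) :
    1 - cost κ L₀ ρs
      ≤ Crest.FinProb.bernoulliProb q {ω : ι → Bool | ∃ S ∈ 𝓗, ∀ i ∈ S, ω i = true} := by
  have hlam : ∀ T : Finset ι, T.Nonempty → lam 𝓗 μ T ≤ κ T.card ^ T.card := by
    intro T hT
    unfold lam
    rw [← sum_filter]
    exact hspread T hT
  have h1 := fail_mul_cov_le 𝓗 μ hμ κ hκ hlam ρs L₀ 𝓗 hL₀ hs
  rw [cov_self, hμ1, mul_one] at h1
  have h2 := fail_mono (qOf_mem L₀ ρs hs).1 hq hq1 𝓗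
  rw [bernoulliProb_eq_succ, succ_eq]
  linarith

lemma qOf_nil : qOf [] = 0 := rfl

lemma qOf_cons (ρ : ℝ × ℕ) (ρs : List (ℝ × ℕ)) :
    qOf (ρ :: ρs) = 1 - (1 - ρ.1) * (1 - qOf ρs) := rfl

lemma cost_nil (κ : ℕ → ℝ) (L₀ : ℕ) : cost κ L₀ [] = 0 := rfl

lemma cost_cons (κ : ℕ → ℝ) (L₀ : ℕ) (ρ : ℝ × ℕ) (ρs : List (ℝ × ℕ)) :
    cost κ L₀ (ρ :: ρs)
      = ∑ t ∈ Ioc ρ.2 L₀, (L₀.choose t : ℝ) * (κ t / ρ.1) ^ t + cost κ ρ.2 ρs := rfl

lemma Sched_nil (L₀ : ℕ) : Sched L₀ [] ↔ L₀ = 0 := Iff.rfl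

lemma Sched_cons (L₀ : ℕ) (ρ : ℝ × ℕ) (ρs : List (ℝ × ℕ)) :
    Sched L₀ (ρ :: ρs) ↔ 0 < ρ.1 ∧ ρ.1 ≤ 1 ∧ Sched ρ.2 ρs := Iff.rfl

/-- All automatically generated unfolding lemmas of the definitions of this file are realised
here, once, so that files importing this one never generate their own copies. -/
theorem unfolding_lemmas_realised : True := by
  have := @wt.eq_1.{0}
  have := @ofFn.eq_1.{0}
  have := @fail.eq_1.{0}
  have := @restrict.eq_1.{0}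
  have := @cands.eq_1.{0}
  have := @frag.eq_1.{0}
  have := @good.eq_1.{0}
  have := @bad.eq_1.{0}
  have := @cov.eq_1.{0}
  have := @lam.eq_1.{0}
  have := @pick.eq_1.{0}
  have := @succ.eq_1.{0}
  have := @qOf.eq_1
  have := @qOf.eq_2
  have := @qOf.eq_def
  have := @qOf.eq_unfold
  have := @cost.eq_1
  have := @cost.eq_2
  have := @cost.eq_def
  have := @cost.eq_unfold
  have := @Sched.eq_1
  have := @Sched.eq_2
  have := @Sched.eq_def
  have := @Sched.eq_unfold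
  trivial

end Main

end Crest.Agent.S0076R
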