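import Crest.Agent.S0076.Spread

/-!
# Park–Pham with a size-dependent spread: the halving schedule

`Spread.lean` proves the containment bound for an arbitrary schedule of rounds.  Here the
schedule is fixed: from the size bound `L ≥ 1` one round of density `16 κ (L/2 + 1)` brings the
fragments down to size `L/2`.  For a positive `κ` that is antitone on `t ≥ 1` the total cost is
at most `1/2`, which gives `spread_half`; for `κ t = a (1 + b / t)` the total density is at most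
`16 a (1 + log₂ L) + 64 a b`, which gives `spread_half_log`.
-/

open Finset

namespace Crest.Agent.S0076R

/-- the halving schedule -/
noncomputable def sched (κ : ℕ → ℝ) : ℕ → List (ℝ × ℕ)
  | 0 => []
  | (L + 1) => (16 * κ ((L + 1) / 2 + 1), (L + 1) / 2) :: sched κ ((L + 1) / 2)
decreasing_by omega

lemma sched_zero (κ : ℕ → ℝ) : sched κ 0 = [] := by
  rw [sched]

lemma sched_pos (κ : ℕ → ℝ) {L : ℕ} (hL : 0 < L) :
    sched κ L = (16 * κ (L / 2 + 1), L / 2) :: sched κ (L / 2) := by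
  obtain ⟨k, rfl⟩ := Nat.exists_eq_succ_of_ne_zero hL.ne'
  rw [sched]

/-- total density of the halving schedule -/
noncomputable def dens (κ : ℕ → ℝ) (L : ℕ) : ℝ := ((sched κ L).map Prod.fst).sum

lemma dens_zero (κ : ℕ → ℝ) : dens κ 0 = 0 := by
  unfold dens
  rw [sched_zero]
  rfl

lemma dens_pos (κ : ℕ → ℝ) {L : ℕ} (hL : 0 < L) :
    dens κ L = 16 * κ (L / 2 + 1) + dens κ (L / 2) := by
  unfold dens
  rw [sched_pos κ hL, List.map_cons, List.sum_cons]

/-- All automatically generated unfolding lemmas of the definitions of this file are realised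
here, once, so that files importing this one never generate their own copies. -/
theorem unfolding_lemmas_realised_half : True := by
  have := @sched.eq_1
  have := @sched.eq_2
  have := @sched.eq_def
  have := @sched.eq_unfold
  have := @dens.eq_1
  trivial

lemma qOf_le_sum : ∀ (L₀ : ℕ) (ρs : List (ℝ × ℕ)), Sched L₀ ρs →
    qOf ρs ≤ (ρs.map Prod.fst).sum
  | _, [], _ => by
      rw [qOf_nil]
      exact le_of_eq rfl
  | _, ρ :: ρs, h => by
      obtain ⟨h0, h1, hs⟩ := h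
      have ih := qOf_le_sum ρ.2 ρs hs
      have hq := qOf_mem ρ.2 ρs hs
      rw [qOf_cons, List.map_cons, List.sum_cons]
      nlinarith [mul_nonneg h0.le hq.1]

section Numeric
variable (κ : ℕ → ℝ)

lemma sched_Sched (hκ : ∀ t, 0 < κ t) (hanti : ∀ s t, 1 ≤ s → s ≤ t → κ t ≤ κ s)
    (h1 : 16 * κ 1 ≤ 1) : ∀ L, Sched L (sched κ L) := by
  intro L
  induction L using Nat.strong_induction_on with
  | _ L ih =>
    rcases Nat.eq_zero_or_pos L with rfl | hL
    · rw [sched_zero]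
      exact (Sched_nil 0).2 rfl
    · rw [sched_pos κ hL, Sched_cons]
      refine ⟨?_, ?_, ih (L / 2) (Nat.div_lt_self hL (by norm_num))⟩
      · have := hκ (L / 2 + 1)
        show 0 < 16 * κ (L / 2 + 1)
        positivity
      · have := hanti 1 (L / 2 + 1) le_rfl (by omega)
        show 16 * κ (L / 2 + 1) ≤ 1
        linarith

lemma round_half (hκ : ∀ t, 0 < κ t) (hanti : ∀ s t, 1 ≤ s → s ≤ t → κ t ≤ κ s)
    (L : ℕ) :
    ∑ t ∈ Ioc (L / 2) L, (L.choose t : ℝ) * (κ t / (16 * κ (L / 2 + 1))) ^ t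
      ≤ 1 / 4 * (1 / 2) ^ L := by
  have hr : 0 < 16 * κ (L / 2 + 1) := by
    have := hκ (L / 2 + 1)
    positivity
  have h1 : ∀ t ∈ Ioc (L / 2) L, (L.choose t : ℝ) * (κ t / (16 * κ (L / 2 + 1))) ^ t
      ≤ (L.choose t : ℝ) * (1 / 16) ^ (L / 2 + 1) := by
    intro t ht
    rw [mem_Ioc] at ht
    have hle : κ t / (16 * κ (L / 2 + 1)) ≤ 1 / 16 := by
      rw [div_le_iff₀ hr]
      have := hanti (L / 2 + 1) t (by omega) (by omega)
      linarith
    have h0 : 0 ≤ κ t / (16 * κ (L / 2 + 1)) := div_nonneg (hκ t).le hr.le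
    have h2 : (κ t / (16 * κ (L / 2 + 1))) ^ t ≤ (1 / 16 : ℝ) ^ t := pow_le_pow_left₀ h0 hle t
    have h3 : (1 / 16 : ℝ) ^ t ≤ (1 / 16) ^ (L / 2 + 1) :=
      pow_le_pow_of_le_one (by norm_num) (by norm_num) (by omega)
    exact mul_le_mul_of_nonneg_left (h2.trans h3) (Nat.cast_nonneg _)
  have hsum : ∑ t ∈ Ioc (L / 2) L, (L.choose t : ℝ) ≤ (2 : ℝ) ^ L := by
    have h : ∑ t ∈ Ioc (L / 2) L, L.choose t ≤ ∑ t ∈ range (L + 1), L.choose t :=
      sum_le_sum_of_subset (fun t ht => by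
        rw [mem_Ioc] at ht
        rw [mem_range]
        omega)
    rw [Nat.sum_range_choose] at h
    exact_mod_cast h
  have e1 : (1 / 16 : ℝ) ^ (L / 2 + 1) = (1 / 2) ^ (4 * (L / 2 + 1)) := by
    rw [pow_mul]
    norm_num
  have e2 : (1 / 2 : ℝ) ^ (4 * (L / 2 + 1)) ≤ (1 / 2) ^ (L + L + 2) :=
    pow_le_pow_of_le_one (by norm_num) (by norm_num) (by omega)
  have e3 : (2 : ℝ) ^ L * (1 / 2) ^ L = 1 := by
    rw [← mul_pow]
    norm_num
  have e4 : (1 / 2 : ℝ) ^ (L + L + 2) = (1 / 2) ^ L * (1 / 2) ^ L * (1 / 4) := by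
    rw [pow_add, pow_add]
    norm_num
  have e5 : (0 : ℝ) ≤ (1 / 2) ^ L := by positivity
  calc ∑ t ∈ Ioc (L / 2) L, (L.choose t : ℝ) * (κ t / (16 * κ (L / 2 + 1))) ^ t
      ≤ ∑ t ∈ Ioc (L / 2) L, (L.choose t : ℝ) * (1 / 16) ^ (L / 2 + 1) := sum_le_sum h1
    _ = (∑ t ∈ Ioc (L / 2) L, (L.choose t : ℝ)) * (1 / 16) ^ (L / 2 + 1) := by rw [sum_mul]
    _ ≤ (2 : ℝ) ^ L * (1 / 16) ^ (L / 2 + 1) :=
        mul_le_mul_of_nonneg_right hsum (by positivity)
    _ ≤ (2 : ℝ) ^ L * (1 / 2) ^ (L + L + 2) := by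
        rw [e1]
        exact mul_le_mul_of_nonneg_left e2 (by positivity)
    _ = 1 / 4 * (1 / 2) ^ L := by
        rw [e4]
        calc (2 : ℝ) ^ L * ((1 / 2) ^ L * (1 / 2) ^ L * (1 / 4))
            = ((2 : ℝ) ^ L * (1 / 2) ^ L) * ((1 / 2) ^ L * (1 / 4)) := by ring
          _ = 1 / 4 * (1 / 2) ^ L := by rw [e3]; ring

lemma cost_sched_le (hκ : ∀ t, 0 < κ t) (hanti : ∀ s t, 1 ≤ s → s ≤ t → κ t ≤ κ s) :
    ∀ L, cost κ L (sched κ L) ≤ (1 - (1 / 2) ^ L) / 2 := by
  intro L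
  induction L using Nat.strong_induction_on with
  | _ L ih =>
    rcases Nat.eq_zero_or_pos L with rfl | hL
    · rw [sched_zero, cost_nil]
      norm_num
    · rw [sched_pos κ hL, cost_cons]
      have h1 := round_half κ hκ hanti L
      have h2 := ih (L / 2) (Nat.div_lt_self hL (by norm_num))
      have h3 : (1 / 2 : ℝ) ^ L ≤ 1 / 2 * (1 / 2) ^ (L / 2) := by
        rw [← pow_succ']
        exact pow_le_pow_of_le_one (by norm_num) (by norm_num) (by omega)
      have h4 : (0 : ℝ) ≤ (1 / 2) ^ L := by positivity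
      show ∑ t ∈ Ioc (L / 2) L, (L.choose t : ℝ) * (κ t / (16 * κ (L / 2 + 1))) ^ t
        + cost κ (L / 2) (sched κ (L / 2)) ≤ (1 - (1 / 2) ^ L) / 2
      linarith

lemma dens_nonneg (hκ : ∀ t, 0 < κ t) : ∀ L, 0 ≤ dens κ L := by
  intro L
  induction L using Nat.strong_induction_on with
  | _ L ih =>
    rcases Nat.eq_zero_or_pos L with rfl | hL
    · rw [dens_zero]
    · rw [dens_pos κ hL]
      have h1 := ih (L / 2) (Nat.div_lt_self hL (by norm_num))
      have h2 := hκ (L / 2 + 1)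
      linarith

lemma le_dens (hκ : ∀ t, 0 < κ t) : ∀ L, 0 < L → 16 * κ 1 ≤ dens κ L := by
  intro L
  induction L using Nat.strong_induction_on with
  | _ L ih =>
    intro hL
    rw [dens_pos κ hL]
    rcases Nat.eq_zero_or_pos (L / 2) with h0 | h0
    · rw [h0, dens_zero]
      simp
    · have h1 := ih (L / 2) (Nat.div_lt_self hL (by norm_num)) h0
      have h2 := hκ (L / 2 + 1)
      linarith

end Numeric

section Half
variable {ι : Type*} [Fintype ι] [DecidableEq ι]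

/-- at density `1` the random subset is everything -/
lemma fail_one (𝓐 : Finset (Finset ι)) (h : 𝓐.Nonempty) : fail (1 : ℝ) 𝓐 = 0 := by
  unfold fail
  refine sum_eq_zero fun Z _ => ?_
  by_cases hZ : Z = univ
  · obtain ⟨A, hA⟩ := h
    rw [if_pos ⟨A, hA, hZ ▸ subset_univ A⟩, mul_zero]
  · obtain ⟨i, hi⟩ : ∃ i, i ∉ Z := by
      by_contra hcon
      exact hZ (eq_univ_of_forall fun i => by_contra fun hi => hcon ⟨i, hi⟩)
    have : wt (1 : ℝ) Z = 0 := by
      unfold wt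
      refine prod_eq_zero (mem_univ i) ?_
      rw [if_neg hi, sub_self]
    rw [this, zero_mul]

variable (𝓗 : Finset (Finset ι)) (μ : Finset ι → ℝ)

/-- **Park–Pham, halving schedule.**  If `κ` is positive and antitone on `t ≥ 1` and the mass
of the members of `𝓗` containing a nonempty `T` is at most `κ |T| ^ |T|`, then the random subset
of density `q ≥ min 1 (dens κ L₀)` contains a member of `𝓗` with probability at least `1/2`. -/
theorem spread_half (hμ : ∀ S ∈ 𝓗, 0 ≤ μ S) (hμ1 : ∑ S ∈ 𝓗, μ S = 1)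
    (κ : ℕ → ℝ) (hκ : ∀ t, 0 < κ t) (hanti : ∀ s t, 1 ≤ s → s ≤ t → κ t ≤ κ s)
    (hspread : ∀ T : Finset ι, T.Nonempty →
      ∑ S ∈ 𝓗.filter (fun S => T ⊆ S), μ S ≤ κ T.card ^ T.card)
    (L₀ : ℕ) (hL₀ : ∀ S ∈ 𝓗, S.card ≤ L₀)
    (q : ℝ) (hq : min 1 (dens κ L₀) ≤ q) (hq1 : q ≤ 1) :
    (1 : ℝ) / 2
      ≤ Crest.FinProb.bernoulliProb q {ω : ι → Bool | ∃ S ∈ 𝓗, ∀ i ∈ S, ω i = true} := by
  by_cases hcase : L₀ = 0 ∨ 16 * κ 1 ≤ 1
  · have hs : Sched L₀ (sched κ L₀) := by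
      rcases hcase with rfl | h1
      · rw [sched_zero]
        exact (Sched_nil 0).2 rfl
      · exact sched_Sched κ hκ hanti h1 L₀
    have hq' : qOf (sched κ L₀) ≤ q :=
      le_trans (le_min (qOf_mem L₀ _ hs).2 (qOf_le_sum L₀ _ hs)) hq
    have h := spread_containment 𝓗 μ hμ hμ1 κ (fun t => (hκ t).le) hspread L₀ hL₀
      (sched κ L₀) hs q hq' hq1
    have hc := cost_sched_le κ hκ hanti L₀
    have hp : (0 : ℝ) ≤ (1 / 2) ^ L₀ := by positivity
    have hhalf : (1 : ℝ) / 2 ≤ 1 - cost κ L₀ (sched κ L₀) := by linarith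
    exact le_trans hhalf h
  · rw [not_or] at hcase
    obtain ⟨hL, h1⟩ := hcase
    have hd := le_dens κ hκ L₀ (Nat.pos_of_ne_zero hL)
    have hq2 : q = 1 := by
      refine le_antisymm hq1 (le_trans ?_ hq)
      exact le_min le_rfl (by linarith)
    have hne : 𝓗.Nonempty := by
      by_contra hcon
      rw [not_nonempty_iff_eq_empty] at hcon
      rw [hcon, sum_empty] at hμ1
      exact zero_ne_one hμ1
    rw [hq2, bernoulliProb_eq_succ, succ_eq, fail_one 𝓗 hne]
    norm_num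

end Half

section Log

/-- density of the halving schedule for `κ t = a (1 + b / t)` -/
lemma dens_log_le (a b : ℝ) (ha : 0 < a) (hb : 0 ≤ b) : ∀ L : ℕ, 0 < L →
    dens (fun t : ℕ => a * (1 + b / (t : ℝ))) L
      ≤ 16 * a * (1 + Real.logb 2 (L : ℝ)) + 64 * a * b * (1 - 1 / ((L : ℝ) + 1)) := by
  intro L
  induction L using Nat.strong_induction_on with
  | _ L ih =>
    intro hL
    rw [dens_pos _ hL]
    have hab : 0 ≤ a * b := mul_nonneg ha.le hb
    rcases Nat.eq_zero_or_pos (L / 2) with h0 | h0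
    · have hL1 : L = 1 := by omega
      rw [h0, dens_zero, hL1]
      norm_num
      nlinarith
    · have h1 := ih (L / 2) (Nat.div_lt_self hL (by norm_num)) h0
      have hm : 2 * (L / 2) ≤ L := Nat.mul_div_le L 2
      have hmpos : (0 : ℝ) < ((L / 2 : ℕ) : ℝ) := by exact_mod_cast h0
      have hLpos : (0 : ℝ) < (L : ℝ) := by exact_mod_cast hL
      have hlog : Real.logb 2 ((L / 2 : ℕ) : ℝ) + 1 ≤ Real.logb 2 (L : ℝ) := by
        have e : Real.logb 2 (2 * ((L / 2 : ℕ) : ℝ)) = 1 + Real.logb 2 ((L / 2 : ℕ) : ℝ) := by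
          rw [Real.logb_mul (by norm_num) hmpos.ne', Real.logb_self_eq_one (by norm_num)]
        have hle : 2 * ((L / 2 : ℕ) : ℝ) ≤ (L : ℝ) := by exact_mod_cast hm
        have := Real.logb_le_logb_of_le (b := 2) (by norm_num) (by positivity) hle
        linarith
      have hfrac : 4 / ((L : ℝ) + 1) ≤ 3 / (((L / 2 : ℕ) : ℝ) + 1) := by
        rw [div_le_div_iff₀ (by positivity) (by positivity)]
        have : 4 * (L / 2 + 1) ≤ 3 * (L + 1) := by omega
        have h' : (4 : ℝ) * (((L / 2 : ℕ) : ℝ) + 1) ≤ 3 * ((L : ℝ) + 1) := by exact_mod_cast this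
        linarith
      have hcast : (((L / 2 + 1 : ℕ)) : ℝ) = ((L / 2 : ℕ) : ℝ) + 1 := by push_cast; ring
      rw [hcast]
      have e1 : a * b * (4 / ((L : ℝ) + 1)) ≤ a * b * (3 / (((L / 2 : ℕ) : ℝ) + 1)) :=
        mul_le_mul_of_nonneg_left hfrac hab
      have e2 : 16 * (a * (1 + b / (((L / 2 : ℕ) : ℝ) + 1)))
          = 16 * a + 16 * (a * b * (1 / (((L / 2 : ℕ) : ℝ) + 1))) := by ring
      have e3 : a * b * (3 / (((L / 2 : ℕ) : ℝ) + 1))
          = 3 * (a * b * (1 / (((L / 2 : ℕ) : ℝ) + 1))) := by ring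
      have e4 : a * b * (4 / ((L : ℝ) + 1)) = 4 * (a * b * (1 / ((L : ℝ) + 1))) := by ring
      have e5 : 64 * a * b * (1 - 1 / (((L / 2 : ℕ) : ℝ) + 1))
          = 64 * (a * b) - 64 * (a * b * (1 / (((L / 2 : ℕ) : ℝ) + 1))) := by ring
      have e6 : 64 * a * b * (1 - 1 / ((L : ℝ) + 1))
          = 64 * (a * b) - 64 * (a * b * (1 / ((L : ℝ) + 1))) := by ring
      rw [e5] at h1
      rw [e2, e6]
      nlinarith

variable {ι : Type*} [Fintype ι] [DecidableEq ι] (𝓗 : Finset (Finset ι)) (μ : Finset ι → ℝ)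

/-- **Park–Pham, logarithmic form.**  If the mass of the members of `𝓗` containing a nonempty
`T` is at most `(a (1 + b / |T|)) ^ |T|` and every member has at most `L₀ ≥ 1` elements, then the
random subset of density `q ≥ min 1 (16 a (1 + log₂ L₀) + 64 a b)` contains a member of `𝓗` with
probability at least `1/2`. -/
theorem spread_half_log (hμ : ∀ S ∈ 𝓗, 0 ≤ μ S) (hμ1 : ∑ S ∈ 𝓗, μ S = 1)
    (a b : ℝ) (ha : 0 < a) (hb : 0 ≤ b)
    (hspread : ∀ T : Finset ι, T.Nonempty →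
      ∑ S ∈ 𝓗.filter (fun S => T ⊆ S), μ S ≤ (a * (1 + b / (T.card : ℝ))) ^ T.card)
    (L₀ : ℕ) (hL : 0 < L₀) (hL₀ : ∀ S ∈ 𝓗, S.card ≤ L₀)
    (q : ℝ) (hq : min 1 (16 * a * (1 + Real.logb 2 (L₀ : ℝ)) + 64 * a * b) ≤ q) (hq1 : q ≤ 1) :
    (1 : ℝ) / 2
      ≤ Crest.FinProb.bernoulliProb q {ω : ι → Bool | ∃ S ∈ 𝓗, ∀ i ∈ S, ω i = true} := by
  have hκ : ∀ t : ℕ, 0 < a * (1 + b / (t : ℝ)) := fun t =>
    mul_pos ha (by have : 0 ≤ b / (t : ℝ) := div_nonneg hb (Nat.cast_nonneg t); linarith)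
  have hanti : ∀ s t : ℕ, 1 ≤ s → s ≤ t → a * (1 + b / (t : ℝ)) ≤ a * (1 + b / (s : ℝ)) := by
    intro s t hs hst
    have hs' : (0 : ℝ) < (s : ℝ) := by exact_mod_cast hs
    have hst' : (s : ℝ) ≤ (t : ℝ) := by exact_mod_cast hst
    have : b / (t : ℝ) ≤ b / (s : ℝ) := div_le_div_of_nonneg_left hb hs' hst'
    exact mul_le_mul_of_nonneg_left (by linarith) ha.le
  refine spread_half 𝓗 μ hμ hμ1 (fun t : ℕ => a * (1 + b / (t : ℝ))) hκ hanti hspread L₀ hL₀ q
    (le_trans (min_le_min le_rfl ?_) hq) hq1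
  have h := dens_log_le a b ha hb L₀ hL
  have hab : 0 ≤ a * b := mul_nonneg ha.le hb
  have hfr : 0 ≤ 1 / ((L₀ : ℝ) + 1) := by positivity
  nlinarith

end Log

section Indexed
variable {ι : Type*} [Fintype ι] [DecidableEq ι] {α : Type*} [Fintype α]

/-- uniform mass on the fibres of `f` -/
noncomputable def fibMass (f : α → Finset ι) (S : Finset ι) : ℝ :=
  ((univ.filter fun x => f x = S).card : ℝ) / (Fintype.card α : ℝ)

omit [Fintype ι] in
lemma sum_fibMass_filter (f : α → Finset ι) (P : Finset ι → Prop) [DecidablePred P] :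
    ∑ S ∈ (univ.image f).filter P, fibMass f S
      = ((univ.filter fun x => P (f x)).card : ℝ) / (Fintype.card α : ℝ) := by
  unfold fibMass
  rw [← sum_div]
  congr 1
  rw [← Nat.cast_sum]
  congr 1
  rw [card_eq_sum_card_image f (univ.filter fun x => P (f x))]
  have himg : (univ.filter fun x => P (f x)).image f = (univ.image f).filter P := by
    ext S
    simp only [mem_image, mem_filter, mem_univ, true_and]
    constructor
    · rintro ⟨x, hx, rfl⟩
      exact ⟨⟨x, rfl⟩, hx⟩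
    · rintro ⟨⟨x, rfl⟩, hx⟩
      exact ⟨x, hx, rfl⟩
  rw [himg]
  refine sum_congr rfl fun S hS => ?_
  congr 1
  ext x
  simp only [mem_filter, mem_univ, true_and]
  constructor
  · intro h
    refine ⟨?_, h⟩
    rw [h]
    exact (mem_filter.1 hS).2
  · exact fun h => h.2

/-- **Park–Pham for an indexed family with the uniform measure on the index set.** -/
theorem spread_half_indexed [Nonempty α] (f : α → Finset ι)
    (κ : ℕ → ℝ) (hκ : ∀ t, 0 < κ t) (hanti : ∀ s t, 1 ≤ s → s ≤ t → κ t ≤ κ s)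
    (hspread : ∀ T : Finset ι, T.Nonempty →
      ((univ.filter fun x => T ⊆ f x).card : ℝ) ≤ κ T.card ^ T.card * (Fintype.card α : ℝ))
    (L₀ : ℕ) (hL₀ : ∀ x, (f x).card ≤ L₀)
    (q : ℝ) (hq : min 1 (dens κ L₀) ≤ q) (hq1 : q ≤ 1) :
    (1 : ℝ) / 2
      ≤ Crest.FinProb.bernoulliProb q {ω : ι → Bool | ∃ x, ∀ i ∈ f x, ω i = true} := by
  have hcard : (0 : ℝ) < (Fintype.card α : ℝ) := by exact_mod_cast Fintype.card_pos
  have hμ : ∀ S ∈ univ.image f, 0 ≤ fibMass f S := fun S _ => by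
    unfold fibMass
    positivity
  have hμ1 : ∑ S ∈ univ.image f, fibMass f S = 1 := by
    have h := sum_fibMass_filter f (fun _ => True)
    rw [filter_true_of_mem (fun _ _ => trivial), filter_true_of_mem (fun _ _ => trivial)] at h
    rw [h, card_univ, div_self hcard.ne']
  have hsp : ∀ T : Finset ι, T.Nonempty →
      ∑ S ∈ (univ.image f).filter (fun S => T ⊆ S), fibMass f S ≤ κ T.card ^ T.card := by
    intro T hT
    rw [sum_fibMass_filter f (fun S => T ⊆ S), div_le_iff₀ hcard]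
    exact hspread T hT
  have hL : ∀ S ∈ univ.image f, S.card ≤ L₀ := by
    intro S hS
    obtain ⟨x, _, rfl⟩ := mem_image.1 hS
    exact hL₀ x
  have h := spread_half (univ.image f) (fibMass f) hμ hμ1 κ hκ hanti hsp L₀ hL q hq hq1
  have hset : {ω : ι → Bool | ∃ S ∈ univ.image f, ∀ i ∈ S, ω i = true}
      = {ω : ι → Bool | ∃ x, ∀ i ∈ f x, ω i = true} := by
    ext ω
    constructor
    · rintro ⟨S, hS, h⟩
      obtain ⟨x, _, rfl⟩ := mem_image.1 hS
      exact ⟨x, h⟩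
    · rintro ⟨x, h⟩
      exact ⟨f x, mem_image_of_mem f (mem_univ x), h⟩
  exact hset ▸ h

/-- **Park–Pham for an indexed family, logarithmic form.** -/
theorem spread_half_log_indexed [Nonempty α] (f : α → Finset ι)
    (a b : ℝ) (ha : 0 < a) (hb : 0 ≤ b)
    (hspread : ∀ T : Finset ι, T.Nonempty →
      ((univ.filter fun x => T ⊆ f x).card : ℝ)
        ≤ (a * (1 + b / (T.card : ℝ))) ^ T.card * (Fintype.card α : ℝ))
    (L₀ : ℕ) (hL : 0 < L₀) (hL₀ : ∀ x, (f x).card ≤ L₀)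
    (q : ℝ) (hq : min 1 (16 * a * (1 + Real.logb 2 (L₀ : ℝ)) + 64 * a * b) ≤ q) (hq1 : q ≤ 1) :
    (1 : ℝ) / 2
      ≤ Crest.FinProb.bernoulliProb q {ω : ι → Bool | ∃ x, ∀ i ∈ f x, ω i = true} := by
  have hκ : ∀ t : ℕ, 0 < a * (1 + b / (t : ℝ)) := fun t =>
    mul_pos ha (by have : 0 ≤ b / (t : ℝ) := div_nonneg hb (Nat.cast_nonneg t); linarith)
  have hanti : ∀ s t : ℕ, 1 ≤ s → s ≤ t → a * (1 + b / (t : ℝ)) ≤ a * (1 + b / (s : ℝ)) := by
    intro s t hs hst
    have hs' : (0 : ℝ) < (s : ℝ) := by exact_mod_cast hs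
    have hst' : (s : ℝ) ≤ (t : ℝ) := by exact_mod_cast hst
    have : b / (t : ℝ) ≤ b / (s : ℝ) := div_le_div_of_nonneg_left hb hs' hst'
    exact mul_le_mul_of_nonneg_left (by linarith) ha.le
  refine spread_half_indexed f (fun t : ℕ => a * (1 + b / (t : ℝ))) hκ hanti hspread L₀ hL₀ q
    (le_trans (min_le_min le_rfl ?_) hq) hq1
  have h := dens_log_le a b ha hb L₀ hL
  have hab : 0 ≤ a * b := mul_nonneg ha.le hb
  have hfr : 0 ≤ 1 / ((L₀ : ℝ) + 1) := by positivity
  nlinarith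

/-- The unfolding lemma of `fibMass` is realised here, once. -/
theorem unfolding_lemmas_realised_indexed : True := by
  have := @fibMass.eq_1.{0, 0}
  trivial

end Indexed

end Crest.Agent.S0076R
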